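import Vale.Agent.P244.A.Id2

/-!
P244 I/OpS: the barrier for `Σ` and the operator applied to it.
Plan: as in I/OpN.  First rewrite the barrier (`funext`) with `(τ₀ - t) / h = (τ₀ - t) * h ^ (-1 : ℤ)`
and use `pop_hh_zpow (-1)`: `Pop h⁻¹ = h⁻¹ (4 θ - b²)`, `dX h⁻¹ = -b h⁻¹` (`dX_comp` with
`hasDerivAt_zpow` or `hasDerivAt_inv`, `dX_hh`), `Pop (τ h⁻¹) = τ Pop h⁻¹ - f² h⁻¹` and
`f² h⁻¹ = θ h` (`f2_eq`).  Finish with `field_simp; ring` (`hh_pos`).
For `G = f² g`: `Pop G + 2 a G' + c G = f² (Pop g - 2 a g' + (c - 8) g)`.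
-/

namespace Vale.Agent.P244

open scoped ContDiff Topology
open Set Filter Real

/-- The barrier `M f² (1 + L (τ / h - h))`. -/
noncomputable def gS (S : St) (M L : ℝ) : Fn := fun t y =>
  M * (S.f2 t y * (1 + L * ((S.τ₀ - t) / S.hh t y - S.hh t y)))

theorem sm_gS {S : St} {t₁ : ℝ} (h : S.Sol t₁) (M L : ℝ) : Sm (Icc 0 t₁) (gS S M L) := by
  refine St.Sol.id0_sm fun t ht y hy => ?_
  exact (smAt_const M).mul ((h.sm_f2.smAt ht hy).mul ((smAt_const 1).add ((smAt_const L).mul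
    ((((smAt_const S.τ₀).sub smAt_t).div (h.sm_hh.smAt ht hy) (S.hh_pos t y).ne').sub
      (h.sm_hh.smAt ht hy)))))

theorem op_gS {S : St} {t₁ t y : ℝ} (h : S.Sol t₁) (ht : t ∈ Icc 0 t₁) (hy : y ∈ Icc (0 : ℝ) 1)
    (M L c : ℝ) : S.Pop (Icc 0 t₁) (gS S M L) t y + 2 * S.aa t y * dX (gS S M L) t y +
      c * gS S M L t y =
    M * (S.f2 t y * (c - 8 + L * ((S.τ₀ - t) / S.hh t y *
        (4 * S.th t y - S.bb t y ^ 2 + 2 * S.aa t y * S.bb t y + c - 8) - S.th t y * S.hh t y -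
      S.hh t y * (-4 * S.th t y - S.bb t y ^ 2 - 2 * S.aa t y * S.bb t y + c - 8)))) := by
  have hI := h.ti
  have h0 := (S.hh_pos t y).ne'
  have e : gS S M L = fun s z => M * (S.f2 s z *
      (1 + L * ((S.τ₀ - s) * S.hh s z ^ (-1 : ℤ) - S.hh s z))) := by
    funext s z
    simp only [gS, zpow_neg_one, div_eq_mul_inv]
  have sh := h.sm_hh.smAt ht hy
  have sf := h.sm_f2.smAt ht hy
  have sτ : SmAt (Icc 0 t₁) (fun s _ => S.τ₀ - s) t y := (smAt_const S.τ₀).sub smAt_t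
  have si : SmAt (Icc 0 t₁) (fun s z => S.hh s z ^ (-1 : ℤ)) t y := by
    have := (smAt_const (I := Icc 0 t₁) (t := t) (y := y) 1).div sh h0
    simpa only [zpow_neg_one, one_div] using this
  have di : dX (fun s z => S.hh s z ^ (-1 : ℤ)) t y = -S.bb t y * (S.hh t y)⁻¹ := by
    rw [dX_comp hI ht hy sh (φ := fun x => x ^ (-1 : ℤ)) (hasDerivAt_zpow (-1) _ (Or.inl h0)),
      h.dX_hh ht hy]
    have : S.hh t y ^ ((-1 : ℤ) - 1) = (S.hh t y ^ 2)⁻¹ := by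
      rw [show ((-1 : ℤ) - 1) = -(2 : ℕ) by norm_num, zpow_neg, zpow_natCast]
    rw [this]
    field_simp
    push_cast
    ring
  have pi := h.pop_hh_zpow ht hy (-1)
  have dτ : dX (fun s _ => S.τ₀ - s) t y = 0 := dX_time hI ht hy fun s => S.τ₀ - s
  have pτ : S.Pop (Icc 0 t₁) (fun s _ => S.τ₀ - s) t y = S.f2 t y * -1 :=
    pop_time hI ht hy S ((hasDerivAt_id t).const_sub S.τ₀)
  have s1 := sτ.mul si
  have s2 := s1.sub sh
  have s3 := (smAt_const L).mul s2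
  have s4 := (smAt_const 1).add s3
  have s5 := sf.mul s4
  have d0 : dX (fun _ _ => (1 : ℝ)) t y = 0 := dX_time hI ht hy fun _ => 1
  have d1 := dX_mul hI ht hy sτ si
  have d2 := dX_sub hI ht hy s1 sh
  have d3 := h.id2_cm ht hy s2 L
  have d4 := dX_add hI ht hy (smAt_const 1) s3
  have d5 := dX_mul hI ht hy sf s4
  have d6 := h.id2_cm ht hy s5 M
  have p1 := pop_mul hI ht hy S sτ si
  have p2 := pop_sub hI ht hy S s1 sh
  have p4 := pop_add hI ht hy S (smAt_const 1) s3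
  have p5 := pop_mul hI ht hy S sf s4
  rw [e, d6.1, d6.2, p5, d5, p4, d4, d3.1, d3.2, p2, d2, p1, d1, pi, di, dτ, pτ, d0,
    pop_const hI ht hy S, h.pop_f2 ht hy, h.pop_hh ht hy, h.dX_f2 ht hy, h.dX_hh ht hy]
  simp only [zpow_neg_one]
  rw [S.f2_eq t y]
  push_cast
  field_simp
  ring

end Vale.Agent.P244
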