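import Mathlib

/-!
P244 I/RealS: real number inequalities (bubble values plus errors) for the barrier of `Σ`.
Plan: `x = τ / h`, `π = x + h ≤ 11 / 5`, `w = θ π / 1000 ≤ 1 / 200`.  `a = a0 + Sg / 3 - vt`,
`b = b0 + vt`, `a0 = 1 - θ / 3`, `b0 = 2 θ / 3`, `a + b = 1 + θ / 3 + Sg / 3`.
Bubble values: `c - 8 = 8/3 θ (θ - 1)`, first bracket `θ (8/3 + 16 θ / 9)`, second bracket
`θ (-8 + 8 θ / 3)`.  Errors: `|c - 8 - 8/3 θ (θ - 1)| ≤ 60 w`, `|b² - b0²| ≤ 3 w`,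
`|2 a b - 2 a0 b0| ≤ 6 w` (separate lemmas; `abs_le`, `nlinarith`), so the total error is at most
`60 w + 20 AE π 70 w ≤ 4 AE θ π`.  Main term: if `1 ≤ θ` it is `≥ 20 AE θ (8/3 x + 5/3 h)`, if
`θ ≤ 1` it is `≥ -24 AE θ π + 20 AE θ (8/3 x + 13/3 h)`; in both cases `≥ 29 AE θ π`.
-/

namespace Vale.Agent.P244

open scoped ContDiff Topology
open Set Filter Real

theorem iRealS_mul {p q w k l : ℝ} (hp : |p| ≤ k * w) (h1 : -l ≤ q) (h2 : q ≤ l) :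
    -(k * l * w) ≤ p * q ∧ p * q ≤ k * l * w := by
  have h : |p * q| ≤ k * w * l := by
    rw [abs_mul]
    exact mul_le_mul hp (abs_le.2 ⟨h1, h2⟩) (abs_nonneg _) ((abs_nonneg _).trans hp)
  have h' := abs_le.1 h
  constructor <;> linarith [h'.1, h'.2]

theorem iRealS_main {θ x h AE : ℝ} (h0 : 0 ≤ θ) (h2 : θ ≤ 2) (hx0 : 0 ≤ x) (hh0 : 0 ≤ h)
    (hA : 1 ≤ AE) (hE : 1 - θ ≤ 9 * AE * (x + h)) :
    29 * (AE * (θ * (x + h))) ≤ 8 / 3 * θ * (θ - 1) +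
      20 * AE * (x * (θ * (8 / 3 + 16 * θ / 9)) - θ * h - h * (θ * (-8 + 8 * θ / 3))) := by
  have hA0 : 0 ≤ AE := by linarith
  have a1 : 0 ≤ AE * θ * x := by positivity
  have a2 : 0 ≤ AE * θ * h := by positivity
  have a3 : 0 ≤ AE * θ * x * θ := by positivity
  rcases le_total 1 θ with h1 | h1
  · have a4 : 0 ≤ θ * (θ - 1) := mul_nonneg h0 (by linarith)
    have a5 : AE * θ * h * θ ≤ AE * θ * h * 2 := mul_le_mul_of_nonneg_left h2 a2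
    nlinarith
  · have a4 : θ * (1 - θ) ≤ θ * (9 * AE * (x + h)) := mul_le_mul_of_nonneg_left hE h0
    have a5 : AE * θ * h * θ ≤ AE * θ * h * 1 := mul_le_mul_of_nonneg_left h1 a2
    nlinarith

theorem iRealS_err {θ Sg vt w : ℝ} (h0 : 0 ≤ θ) (h2 : θ ≤ 2) (hw1 : w ≤ 1 / 200) (hS : |Sg| ≤ w)
    (hv : |vt| ≤ w) :
    |(Sg * (36 - 4 * θ + 4 * Sg) / 3 + vt * (-48 + 24 * θ - 8 * Sg + 27 * vt)) / 3| ≤ 30 * w ∧
    |vt * (4 / 3 * θ + vt)| ≤ 3 * w ∧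
    |2 * (vt * (1 - θ / 3) + (Sg / 3 - vt) * (2 / 3 * θ + vt))| ≤ 6 * w := by
  have hw0 : 0 ≤ w := (abs_nonneg _).trans hv
  have hv1 : |vt| ≤ 1 * w := by rwa [one_mul]
  have hS1 : |Sg| ≤ 1 * w := by rwa [one_mul]
  obtain ⟨s1, s2⟩ := abs_le.1 hS
  obtain ⟨v1, v2⟩ := abs_le.1 hv
  have p1 := iRealS_mul (q := 36 - 4 * θ + 4 * Sg) (l := 37) hS1 (by linarith) (by linarith)
  have p2 := iRealS_mul (q := -48 + 24 * θ - 8 * Sg + 27 * vt) (l := 49) hv1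
    (by linarith) (by linarith)
  have p3 := iRealS_mul (q := 4 / 3 * θ + vt) (l := 3) hv1 (by linarith) (by linarith)
  have p4 := iRealS_mul (q := 1 - θ / 3) (l := 1) hv1 (by linarith) (by linarith)
  have p5 := iRealS_mul (p := Sg / 3 - vt) (k := 4 / 3) (w := w) (q := 2 / 3 * θ + vt) (l := 3 / 2)
    (abs_le.2 ⟨by linarith, by linarith⟩) (by linarith) (by linarith)
  generalize Sg * (36 - 4 * θ + 4 * Sg) = A at *
  generalize vt * (-48 + 24 * θ - 8 * Sg + 27 * vt) = B at *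
  generalize vt * (4 / 3 * θ + vt) = C at *
  generalize vt * (1 - θ / 3) = D at *
  generalize (Sg / 3 - vt) * (2 / 3 * θ + vt) = E at *
  exact ⟨abs_le.2 ⟨by linarith only [p1.1, p2.1, hw0], by linarith only [p1.2, p2.2, hw0]⟩,
    abs_le.2 ⟨by linarith only [p3.1], by linarith only [p3.2]⟩,
    abs_le.2 ⟨by linarith only [p4.1, p5.1], by linarith only [p4.2, p5.2]⟩⟩

theorem iRealS_fin {x h AE w e1 e2 e3 : ℝ} (hx0 : 0 ≤ x) (hx : x ≤ 2) (hh0 : 0 ≤ h)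
    (hh : h ≤ 1 / 5) (hA : 1 ≤ AE) (hw0 : 0 ≤ w) (b1 : |e1| ≤ 30 * w) (b2 : |e2| ≤ 3 * w)
    (b3 : |e3| ≤ 6 * w) :
    5 * (1000 * w) ≤ 29 * (AE * (1000 * w)) + e1 +
      20 * (AE * (x * (-e2 + e3 + e1) - h * (-e2 - e3 + e1))) := by
  obtain ⟨s1, s2⟩ := abs_le.1 b1
  obtain ⟨t1, t2⟩ := abs_le.1 b2
  obtain ⟨u1, u2⟩ := abs_le.1 b3
  have d1 : x * (-(40 * w)) ≤ x * (-e2 + e3 + e1) := mul_le_mul_of_nonneg_left (by linarith) hx0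
  have d2 : h * (-e2 - e3 + e1) ≤ h * (40 * w) := mul_le_mul_of_nonneg_left (by linarith) hh0
  have d3 : (x + h) * w ≤ 11 / 5 * w := mul_le_mul_of_nonneg_right (by linarith) hw0
  have d4 : AE * (-(88 * w)) ≤ AE * (x * (-e2 + e3 + e1) - h * (-e2 - e3 + e1)) :=
    mul_le_mul_of_nonneg_left (by linarith only [d1, d2, d3]) (by linarith)
  have d5 : 1 * w ≤ AE * w := mul_le_mul_of_nonneg_right hA hw0
  linarith only [d4, d5, s1, hw0]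

theorem realS {θ a b Sg vt c x h AE : ℝ} (h0 : 0 ≤ θ) (h2 : θ ≤ 2) (hx0 : 0 ≤ x) (hx : x ≤ 2)
    (hh0 : 0 ≤ h) (hh : h ≤ 1 / 5) (hA : 1 ≤ AE) (ha : a = 1 - θ / 3 + Sg / 3 - vt)
    (hb : b = vt + 2 / 3 * θ) (hS : |Sg| ≤ θ * (x + h) / 1000) (hv : |vt| ≤ θ * (x + h) / 1000)
    (hE : 1 - θ ≤ 9 * AE * (x + h))
    (hc : c = (12 * ((a + b) ^ 2 + (a + b) * (1 + θ / 3) + (1 + θ / 3) ^ 2) - 12 -
      b * (24 * (a + b + 1 + θ / 3) - 4 * θ) + 27 * b ^ 2) / 3) :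
    0 < c ∧ 5 * (θ * (x + h)) ≤ c - 8 + 20 * AE * (x * (4 * θ - b ^ 2 + 2 * a * b + c - 8) -
      θ * h - h * (-4 * θ - b ^ 2 - 2 * a * b + c - 8)) := by
  have hm := iRealS_main h0 h2 hx0 hh0 hA hE
  obtain ⟨w, hw⟩ : ∃ w, w = θ * (x + h) / 1000 := ⟨_, rfl⟩
  rw [← hw] at hS hv
  have hw0 : 0 ≤ w := (abs_nonneg _).trans hv
  have hw1 : w ≤ 1 / 200 := by
    have : θ * (x + h) ≤ 2 * (11 / 5) := mul_le_mul h2 (by linarith only [hx, hh]) (by linarith only [hx0, hh0]) (by norm_num)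
    linarith only [this, hw]
  obtain ⟨b1, b2, b3⟩ := iRealS_err h0 h2 hw1 hS hv
  obtain ⟨e1, he1⟩ : ∃ e, e = (Sg * (36 - 4 * θ + 4 * Sg) / 3 +
    vt * (-48 + 24 * θ - 8 * Sg + 27 * vt)) / 3 := ⟨_, rfl⟩
  obtain ⟨e2, he2⟩ : ∃ e, e = vt * (4 / 3 * θ + vt) := ⟨_, rfl⟩
  obtain ⟨e3, he3⟩ : ∃ e, e = 2 * (vt * (1 - θ / 3) + (Sg / 3 - vt) * (2 / 3 * θ + vt)) := ⟨_, rfl⟩
  have c1 : c = 8 + 8 / 3 * θ * (θ - 1) + e1 := by rw [hc, ha, hb, he1]; ring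
  have c2 : b ^ 2 = 4 / 9 * θ ^ 2 + e2 := by rw [hb, he2]; ring
  have c3 : 2 * a * b = 4 / 3 * θ - 4 / 9 * θ ^ 2 + e3 := by rw [ha, hb, he3]; ring
  rw [← he1] at b1
  rw [← he2] at b2
  rw [← he3] at b3
  have hf := iRealS_fin hx0 hx hh0 hh hA hw0 b1 b2 b3
  refine ⟨by nlinarith only [c1, (abs_le.1 b1).1, hw1, sq_nonneg (θ - 1 / 2)], ?_⟩
  have d6 : θ * (x + h) = 1000 * w := by rw [hw]; ring
  rw [d6] at hm ⊢
  have e : c - 8 + 20 * AE * (x * (4 * θ - b ^ 2 + 2 * a * b + c - 8) - θ * h -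
      h * (-4 * θ - b ^ 2 - 2 * a * b + c - 8)) = 8 / 3 * θ * (θ - 1) +
      20 * AE * (x * (θ * (8 / 3 + 16 * θ / 9)) - θ * h - h * (θ * (-8 + 8 * θ / 3))) + e1 +
      20 * (AE * (x * (-e2 + e3 + e1) - h * (-e2 - e3 + e1))) := by
    rw [c2, c3, c1]
    ring
  rw [e]
  linarith only [hm, hf]

end Vale.Agent.P244
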