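import Mathlib

/-!
P244 I/SrcS: sizes of `Σ`, `ϑ`, `1 - θ` and of the source in terms of `π = τ / h + h`.
Plan: put `x = τ / h`, so `τ = x h`, `0 < x ≤ 2`, `τ + h² = h π`, `π = x + h ≤ 3`, `h ≤ π`.
`|m| ≤ Am θ h π² ≤ 3 Am θ h π`, `|Sg| ≤ AS θ h² ≤ AS θ h π`,
`|vt| ≤ (|m| + 4/3 |Sg|) / 3 ≤ θ h (Am π² + 4/3 AS h) / 3`.
`(Am π² + 4/3 AS h)² ≤ 2 Am² π⁴ + 32/9 AS² h² ≤ 54 Am² π + 8/9 π ≤ 55 Am² π`, and
`29 * 55 / 9 ≤ 200`.  `1 - θ ≤ AE π³ ≤ 9 AE π` (cancel `h³ > 0`).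
-/

namespace Vale.Agent.P244

open scoped ContDiff Topology
open Set Filter Real

theorem srcS {θ Sg vt m τ h Am AE AS : ℝ} (h0 : 0 ≤ θ) (h2 : θ ≤ 2) (hτ : 0 < τ) (hh0 : 0 < h)
    (hτh : τ ≤ 2 * h) (hh : h ≤ 1 / 5) (hAm : 1 ≤ Am) (hAE : 1 ≤ AE) (hAS : 1 ≤ AS)
    (s1 : (Am + AS) * h ≤ 1 / 1000) (s2 : AS ^ 2 * h ≤ 1 / 4)
    (hv : vt = (m + 2 / 3 * θ * Sg) / (3 + θ)) (hm : |m| ≤ θ * (τ + h ^ 2) ^ 2 / h * Am)
    (hS : |Sg| ≤ θ * h ^ 2 * AS) (hE : |(1 - θ) * h ^ 3| ≤ AE * (τ + h ^ 2) ^ 3) :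
    |Sg| ≤ θ * (τ / h + h) / 1000 ∧ |vt| ≤ θ * (τ / h + h) / 1000 ∧
      1 - θ ≤ 9 * AE * (τ / h + h) ∧
      (27 + θ) * vt ^ 2 ≤ 40 * Am ^ 2 * (θ * h ^ 2 * (5 * (θ * (τ / h + h)))) := by
  have hx0 : 0 < τ / h := div_pos hτ hh0
  have hx2 : τ / h ≤ 2 := (div_le_iff₀ hh0).2 hτh
  have e : τ + h ^ 2 = h * (τ / h + h) := by field_simp
  rw [e] at hm hE
  have hp1 : h ≤ τ / h + h := by linarith
  have hp3 : τ / h + h ≤ 3 := by linarith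
  generalize τ / h + h = p at *
  have hp0 : 0 < p := hh0.trans_le hp1
  have hm' : |m| ≤ θ * h * (Am * p ^ 2) := hm.trans_eq (by field_simp)
  have a1 : 0 ≤ Am * h := by positivity
  have a2 : 0 ≤ AS * h := by positivity
  have hθp : 0 ≤ θ * p := by positivity
  have hθh : 0 ≤ θ * h := by positivity
  have hK0 : 0 ≤ Am * p ^ 2 + 4 / 3 * (AS * h) := by positivity
  have hvt : |vt| ≤ θ * h * (Am * p ^ 2 + 4 / 3 * (AS * h)) / 3 := by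
    rw [hv, abs_div, abs_of_pos (by linarith : 0 < 3 + θ)]
    refine div_le_div₀ (by positivity) ((abs_add_le _ _).trans ?_) (by norm_num) (by linarith)
    rw [abs_mul, abs_of_nonneg (by positivity : 0 ≤ 2 / 3 * θ)]
    have : θ * |Sg| ≤ 2 * (θ * h ^ 2 * AS) :=
      mul_le_mul h2 hS (abs_nonneg _) (by norm_num)
    linarith
  have hp2 : p ^ 2 ≤ 3 * p := by nlinarith
  have hp9 : p ^ 3 ≤ 9 * p := by nlinarith
  have hp27 : p ^ 4 ≤ 27 * p := by nlinarith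
  refine ⟨hS.trans ?_, hvt.trans ?_, ?_, ?_⟩
  · have b1 : θ * h * (AS * h) ≤ θ * p * (1 / 1000) :=
      mul_le_mul (mul_le_mul_of_nonneg_left hp1 h0) (by linarith) a2 hθp
    linarith
  · have b1 : Am * h * p ^ 2 ≤ Am * h * (3 * p) := mul_le_mul_of_nonneg_left hp2 a1
    have b2 : AS * h * h ≤ AS * h * p := mul_le_mul_of_nonneg_left hp1 a2
    have b3 : (Am + AS) * h * p ≤ 1 / 1000 * p := mul_le_mul_of_nonneg_right s1 hp0.le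
    have b4 : 0 ≤ AS * h * p := by positivity
    have b5 : h * (Am * p ^ 2 + 4 / 3 * (AS * h)) / 3 ≤ p / 1000 := by linarith
    have := mul_le_mul_of_nonneg_left b5 h0
    linarith
  · have b1 : (1 - θ) * h ^ 3 ≤ AE * p ^ 3 * h ^ 3 := (le_abs_self _).trans (hE.trans_eq (by ring))
    have b2 := le_of_mul_le_mul_right b1 (pow_pos hh0 3)
    have := mul_le_mul_of_nonneg_left hp9 (by linarith : 0 ≤ AE)
    linarith
  · have b0 : 1 ≤ Am ^ 2 := one_le_pow₀ hAm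
    have b1 : Am ^ 2 * p ^ 4 ≤ Am ^ 2 * (27 * p) := mul_le_mul_of_nonneg_left hp27 (by positivity)
    have b2 : AS ^ 2 * h * h ≤ 1 / 4 * p := mul_le_mul s2 hp1 hh0.le (by norm_num)
    have b3 : 1 * p ≤ Am ^ 2 * p := mul_le_mul_of_nonneg_right b0 hp0.le
    have b4 : (Am * p ^ 2 + 4 / 3 * (AS * h)) ^ 2 ≤ 55 * (Am ^ 2 * p) := by
      linear_combination sq_nonneg (Am * p ^ 2 - 4 / 3 * (AS * h)) + 2 * b1 + 32 / 9 * b2 + b3 +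
        1 / 9 * hp0.le
    have b5 : vt ^ 2 ≤ (θ * h * (Am * p ^ 2 + 4 / 3 * (AS * h)) / 3) ^ 2 := by
      rw [← sq_abs vt]
      exact pow_le_pow_left₀ (abs_nonneg _) hvt 2
    have b6 := mul_le_mul_of_nonneg_left b4 (sq_nonneg (θ * h))
    have b7 : (27 + θ) * vt ^ 2 ≤ 29 * vt ^ 2 := mul_le_mul_of_nonneg_right (by linarith) (sq_nonneg _)
    have b8 : 0 ≤ (θ * h) ^ 2 * (Am ^ 2 * p) := by positivity
    linear_combination b7 + 29 * b5 + 29 / 9 * b6 + 205 / 9 * b8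

end Vale.Agent.P244
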