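import Vale.Agent.P244.I.Bar
import Vale.Agent.P244.I.OpS
import Vale.Agent.P244.I.RealS
import Vale.Agent.P244.I.SrcS
import Vale.Agent.P244.A.N

/-!
P244 I/MainS: the barrier argument for `Σ` in the inner region.
-/

namespace Vale.Agent.P244

open scoped ContDiff Topology
open Set Filter Real

theorem iS_int {κ : Cst} (hκ : κ.Adm) {S : St} {t₁ t y M s : ℝ} (h : S.Sol t₁) (ht : t ∈ Icc 0 t₁)
    (hb : BasI S t y) (hT : TrI (κ.ws s) S 1 t y) (hM : 40 * κ.Am ^ 2 ≤ M)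
    (s1 : (κ.Am + κ.AS) * S.hh t y ≤ 1 / 1000) (s2 : κ.AS ^ 2 * S.hh t y ≤ 1 / 4) :
    ∃ α c : ℝ, 0 < c ∧ |S.Pop (Icc 0 t₁) S.Sg t y + α * dX S.Sg t y + c * S.Sg t y| ≤
      S.Pop (Icc 0 t₁) (gS S M (20 * κ.AE)) t y + α * dX (gS S M (20 * κ.AE)) t y +
        c * gS S M (20 * κ.AE) t y := by
  have hy : y ∈ Icc (0 : ℝ) 1 := ⟨hb.mem.1, by linarith [hb.mem.2]⟩
  have hτ : 0 < S.τ₀ - t := by linarith [h.lt, ht.2]
  have hh := S.hh_pos t y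
  have h0 := S.th_nonneg (t := t) hy
  have u1 : |S.u1 t y| ≤ 1 * κ.Am := hT.u1
  have u2 : |S.u2 t y| ≤ 1 * κ.AS := hT.u2
  have hE : |S.EE t y| ≤ 1 * κ.AE * S.sg t y ^ 3 := hT.E
  rw [one_mul] at u1 u2 hE
  rw [S.EE_eq, S.sg_eq] at hE
  have hm : |S.mm t y| ≤ S.th t y * (S.τ₀ - t + S.hh t y ^ 2) ^ 2 / S.hh t y * κ.Am := by
    rw [S.mm_eq (by linarith), S.sg_eq, abs_mul, abs_of_nonneg (by positivity)]
    exact mul_le_mul_of_nonneg_left u1 (by positivity)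
  have hS : |S.Sg t y| ≤ S.th t y * S.hh t y ^ 2 * κ.AS := by
    rw [S.Sg_eq (by linarith [hb.mem.2] : y < 1).ne, S.f2_eq, abs_mul,
      abs_of_nonneg (by positivity)]
    exact mul_le_mul_of_nonneg_left u2 (by positivity)
  obtain ⟨a1, a2, a3, a4⟩ := srcS h0 hb.th hτ hh hb.tau hb.h hκ.Am hκ.AE hκ.AS s1 s2
    (S.vt_eq hy) hm hS hE
  obtain ⟨r1, r2⟩ := realS (c := S.Gam t y / 3) h0 hb.th (div_pos hτ hh).le
    ((div_le_iff₀ hh).2 hb.tau) hh.le hb.h hκ.AE S.aa_eq S.bb_eq a1 a2 a3 rfl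
  refine ⟨2 * S.aa t y, _, r1, ?_⟩
  have e : S.Pop (Icc 0 t₁) S.Sg t y + 2 * S.aa t y * dX S.Sg t y + S.Gam t y / 3 * S.Sg t y =
      -((27 + S.th t y) * S.vt t y ^ 2) := by
    rw [h.pop_Sg ht hy]
    ring
  rw [e, op_gS h ht hy, abs_neg, abs_of_nonneg (by positivity), S.f2_eq]
  refine a4.trans (mul_le_mul hM (mul_le_mul_of_nonneg_left r2 (by positivity)) (by positivity) ?_)
  exact le_trans (by positivity) hM

theorem iS_bd {S : St} {t y M L c : ℝ} (hy : y ∈ Ico (0 : ℝ) 1) (hτ : 0 < S.τ₀ - t) (hL : 0 ≤ L)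
    (hh : L * S.hh t y ≤ 1 / 2) (hM : 2 * c ≤ M) (hn : |S.u2 t y| ≤ c) :
    |S.Sg t y| ≤ gS S M L t y := by
  have f0 := S.f2_nonneg (t := t) (Ico_subset_Icc_self hy)
  have h0 := S.hh_pos t y
  have hc := (abs_nonneg _).trans hn
  have h1 : 1 / 2 ≤ 1 + L * ((S.τ₀ - t) / S.hh t y - S.hh t y) := by
    have : 0 ≤ L * ((S.τ₀ - t) / S.hh t y) := by positivity
    linarith
  have h4 := mul_le_mul hM (mul_le_mul_of_nonneg_left h1 f0) (by positivity) (by linarith)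
  rw [gS, S.Sg_eq hy.2.ne, abs_mul, abs_of_nonneg f0]
  linarith [mul_le_mul_of_nonneg_left hn f0]

theorem iS_u {S : St} {t y M L : ℝ} (hy : y ∈ Ioo (0 : ℝ) 1) (hτ : S.τ₀ - t ≤ 2 * S.hh t y)
    (hM : 0 ≤ M) (hL : 0 ≤ L) (hn : |S.Sg t y| ≤ gS S M L t y) : |S.u2 t y| ≤ M * (1 + 2 * L) := by
  have f0 := S.f2_pos (t := t) hy
  have hh := S.hh_pos t y
  have h0 : (S.τ₀ - t) / S.hh t y - S.hh t y ≤ 2 := by linarith [(div_le_iff₀ hh).2 hτ]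
  have h1 : 1 + L * ((S.τ₀ - t) / S.hh t y - S.hh t y) ≤ 1 + 2 * L := by
    linarith [mul_le_mul_of_nonneg_left h0 hL]
  have h2 := mul_le_mul_of_nonneg_left (mul_le_mul_of_nonneg_left h1 f0.le) hM
  rw [S.Sg_eq hy.2.ne, abs_mul, abs_of_pos f0, gS] at hn
  exact le_of_mul_le_mul_left (by linarith) f0

theorem i_S' : ∃ M : ℝ → ℝ → ℝ, ∀ κ : Cst, κ.Adm → ∀ᶠ r in fam κ, ∀ t ∈ r.I,
    ∀ y ∈ Icc 0 (r.s ^ 3), |r.S.u2 t y| ≤ M κ.Am κ.AE := by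
  obtain ⟨M0, hM0⟩ := data_u 0
  refine ⟨fun Am AE => (40 * Am ^ 2 + 2 * (|M0| + 1)) * (1 + 2 * (20 * AE)), fun κ hκ => ?_⟩
  have hM := abs_nonneg M0
  have hA : 0 ≤ 40 * κ.Am ^ 2 := by positivity
  have hL : 0 ≤ 20 * κ.AE := by linarith [hκ.AE]
  filter_upwards [far_u hκ 0 one_pos, bas_I hκ, ev_dok hκ,
    ev_mul_s κ ((κ.Am + κ.AS) * 2) (by norm_num : (0 : ℝ) < 1 / 1000),
    ev_mul_s κ (κ.AS ^ 2 * 2) (by norm_num : (0 : ℝ) < 1 / 4),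
    ev_mul_s κ (20 * κ.AE * 2) (by norm_num : (0 : ℝ) < 1 / 2)] with r h1 h4 h6 s1 s2 s3
  have hs : 0 < r.s ^ 3 := pow_pos r.hs 3
  have hs1 : r.s ^ 3 ≤ 1 / 1000 := (h4 0 ⟨le_rfl, r.sol.pos.le⟩ _ ⟨hs.le, le_rfl⟩).mem.2
  have sub : Icc 0 (r.s ^ 3) ⊆ Icc (0 : ℝ) 1 := Icc_subset_Icc_right (by linarith)
  have key := i_bar r.S r.sol.pos (Ω := Icc 0 r.t₁ ×ˢ Icc 0 (r.s ^ 3))
    (isCompact_Icc.prod isCompact_Icc) (prod_mono le_rfl sub) r.sol.sm_Sg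
    (sm_gS r.sol (40 * κ.Am ^ 2 + 2 * (|M0| + 1)) (20 * κ.AE)) ?_
  · have pos : ∀ t ∈ r.I, ∀ y ∈ Ioc 0 (r.s ^ 3), |r.S.u2 t y| ≤
        (40 * κ.Am ^ 2 + 2 * (|M0| + 1)) * (1 + 2 * (20 * κ.AE)) := fun t ht y hy =>
      iS_u ⟨hy.1, by linarith [hy.2]⟩ (h4 t ht y ⟨hy.1.le, hy.2⟩).tau (by linarith) hL
        (key t y ⟨ht, hy.1.le, hy.2⟩)
    intro t ht y hy
    rcases hy.1.eq_or_lt with rfl | hy0
    · exact i_zero (((r.sol.sm_u2 ht ⟨le_rfl, zero_lt_one⟩).hasY ht).continuousWithinAt) hs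
        (by linarith) fun z hz => pos t ht z ⟨hz.1, hz.2.le⟩
    · exact pos t ht y ⟨hy0, hy.2⟩
  · rintro t y ⟨ht, hy⟩
    have hτ := r.tau_pos ht
    have hy1 : y ∈ Ico (0 : ℝ) 1 := ⟨hy.1, by linarith [hy.2]⟩
    have k1 : r.S.hh t y ≤ (1 + 1) * r.s := ((r.tr ht).I y hy).h
    have k2 : 20 * κ.AE * r.S.hh t y ≤ 1 / 2 := by linarith [mul_le_mul_of_nonneg_left k1 hL]
    have d1 : ∀ z ∈ Icc 0 (r.s ^ 3), |r.S.u2 0 z| ≤ |M0| := fun z hz =>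
      ((hM0 _ _ _ h6 0 le_rfl z ⟨hz.1, by linarith [hz.2]⟩).2).trans (le_abs_self _)
    rcases ht.1.eq_or_lt with rfl | ht0
    · exact Or.inl (iS_bd hy1 hτ hL k2 (by linarith) (d1 y hy))
    rcases hy.1.eq_or_lt with rfl | hy0
    · left
      rw [r.S.Sg_eq zero_ne_one]
      simp [St.f2, gS]
    rcases hy.2.eq_or_lt with rfl | hy2
    · refine Or.inl (iS_bd (c := |M0| + 1) hy1 hτ hL k2 (by linarith) ?_)
      have d2 : |r.S.u2 t (r.s ^ 3) - r.S.u2 0 (r.s ^ 3)| ≤ 1 := (h1 0 le_rfl t ht).2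
      linarith [d1 _ hy, abs_sub_abs_le_abs_sub (r.S.u2 t (r.s ^ 3)) (r.S.u2 0 (r.s ^ 3))]
    refine Or.inr ⟨ht0, ⟨hy0, hy1.2⟩, ?_, iS_int hκ r.sol ht (h4 t ht y hy) ((r.tr ht).I y hy)
      (by linarith) ?_ ?_⟩
    · filter_upwards [self_mem_nhdsWithin, (continuous_snd.continuousWithinAt
        (x := (t, y))).eventually (gt_mem_nhds hy2)] with p p1 p3
      exact ⟨p1.1, p1.2.1, p3.le⟩
    · linarith [mul_le_mul_of_nonneg_left k1 (by linarith [hκ.Am, hκ.AS] : 0 ≤ κ.Am + κ.AS)]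
    · linarith [mul_le_mul_of_nonneg_left k1 (sq_nonneg κ.AS)]

end Vale.Agent.P244
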