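import Vale.Agent.P244.Kit.MP

/-!
P244 I/Bar: the two sided barrier lemma.
Plan `i_bar`: it suffices to show `|u| < G + ε` on `Ω` for every `ε > 0` (`le_of_forall_pos_lt_add`).
Otherwise apply `mp_first` to `F : Bool → Fn`, `F j t y = sg j * u t y - G t y - ε` with
`sg j = 1` or `-1` (`Sm.cont`).  At the touching point `0 ≤ F`, so the first alternative is
impossible; `mp_pop` gives `F = 0`, `dX F = 0`, `0 ≤ Pop F`.  Expand `dX F`, `Pop F` with
`pop_sub`, `pop_mul`, `pop_const`, `dX_sub`, `dX_mul`, `dX_time` (a constant is `fun s _ => φ s`):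
`0 ≤ Pop F + α dX F + c F = sg (Pop u + α dX u + c u) - (Pop G + α dX G + c G) - c ε < 0`.
`i_zero`: `le_of_tendsto` along `𝓝[Ioo 0 b] 0` (`left_nhdsWithin_Ioo_neBot`), or
`ContinuousWithinAt.closure_le`.
-/

namespace Vale.Agent.P244

open scoped ContDiff Topology
open Set Filter Real

theorem i_bar (S : St) {t₁ : ℝ} (h1 : 0 < t₁) {Ω : Set (ℝ × ℝ)} (hΩ : IsCompact Ω)
    (hs : Ω ⊆ Icc 0 t₁ ×ˢ Icc 0 1) {u G : Fn} (hu : Sm (Icc 0 t₁) u) (hG : Sm (Icc 0 t₁) G)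
    (h : ∀ t y, (t, y) ∈ Ω → |u t y| ≤ G t y ∨ (0 < t ∧ y ∈ Ioo (0 : ℝ) 1 ∧
      Ω ∈ 𝓝[Icc 0 t₁ ×ˢ Icc 0 1] (t, y) ∧ ∃ α c : ℝ, 0 < c ∧
      |S.Pop (Icc 0 t₁) u t y + α * dX u t y + c * u t y| ≤
        S.Pop (Icc 0 t₁) G t y + α * dX G t y + c * G t y)) :
    ∀ t y, (t, y) ∈ Ω → |u t y| ≤ G t y := by
  intro t₀ y₀ h₀
  refine le_of_forall_pos_lt_add fun ε hε => ?_
  by_contra hcon
  rw [not_lt] at hcon
  have hI := ti_Icc h1
  let sg : Bool → ℝ := fun j => if j then 1 else -1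
  have hsg : ∀ j (x : ℝ), sg j * x ≤ |x| := by
    intro j x
    cases j
    · simpa [sg] using neg_le_abs x
    · simpa [sg] using le_abs_self x
  let F : Bool → Fn := fun j t y => sg j * u t y - G t y - ε
  have hF : ∀ j, ContinuousOn (fun p : ℝ × ℝ => F j p.1 p.2) Ω := fun j =>
    (((continuousOn_const.mul hu.cont).sub hG.cont).sub continuousOn_const).mono hs
  have hex : ∃ q ∈ Ω, ∃ j, 0 ≤ F j q.1 q.2 := by
    refine ⟨(t₀, y₀), h₀, ?_⟩
    rcases le_total 0 (u t₀ y₀) with k | k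
    · rw [abs_of_nonneg k] at hcon
      exact ⟨true, by simp only [F, sg, if_true]; linarith⟩
    · rw [abs_of_nonpos k] at hcon
      exact ⟨false, by simp only [F, sg, Bool.false_eq_true, if_false]; linarith⟩
  obtain ⟨⟨t, y⟩, hp, i, k0, k1, k2⟩ := mp_first hΩ hF hex
  have ht : t ∈ Icc 0 t₁ := (hs hp).1
  have hy : y ∈ Icc (0 : ℝ) 1 := (hs hp).2
  rcases h t y hp with k | ⟨ht0, hy0, hN, α, c, hc, k⟩
  · have := hsg i (u t y)
    simp only [F] at k0
    linarith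
  · have su := hu.smAt ht hy
    have sG := hG.smAt ht hy
    have s1 : SmAt (Icc 0 t₁) (fun s z => sg i * u s z) t y := (smAt_const _).mul su
    have s2 : SmAt (Icc 0 t₁) (fun s z => sg i * u s z - G s z) t y := s1.sub sG
    have s3 : SmAt (Icc 0 t₁) (F i) t y := s2.sub (smAt_const _)
    obtain ⟨e0, e1, e2⟩ := mp_pop S ⟨ht0, ht.2⟩ hy0 s3 hN k0 (fun q hq hl => k1 q hq hl i)
      (fun q hq he => k2 q hq he i)
    have d0 : ∀ a : ℝ, dX (fun _ _ => a) t y = 0 := fun a => dX_time hI ht hy fun _ => a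
    have x1 : dX (F i) t y = sg i * dX u t y - dX G t y := by
      rw [show F i = fun s z => (sg i * u s z - G s z) - (fun _ _ => ε : Fn) s z from rfl,
        dX_sub hI ht hy s2 (smAt_const _), dX_sub hI ht hy s1 sG,
        dX_mul hI ht hy (smAt_const _) su, d0, d0]
      ring
    have x2 : S.Pop (Icc 0 t₁) (F i) t y =
        sg i * S.Pop (Icc 0 t₁) u t y - S.Pop (Icc 0 t₁) G t y := by
      rw [show F i = fun s z => (sg i * u s z - G s z) - (fun _ _ => ε : Fn) s z from rfl,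
        pop_sub hI ht hy S s2 (smAt_const _), pop_sub hI ht hy S s1 sG,
        pop_mul hI ht hy S (smAt_const _) su, pop_const hI ht hy, pop_const hI ht hy, d0]
      ring
    have x3 : sg i * u t y - G t y - ε = 0 := e0
    have x4 := hsg i (S.Pop (Icc 0 t₁) u t y + α * dX u t y + c * u t y)
    have x5 := mul_pos hc hε
    rw [x1] at e1
    rw [x2] at e2
    have x6 : sg i * (S.Pop (Icc 0 t₁) u t y + α * dX u t y + c * u t y) =
        sg i * S.Pop (Icc 0 t₁) u t y + α * dX G t y + c * G t y + c * ε := by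
      linear_combination α * e1 + c * x3
    linarith

theorem i_zero {g : ℝ → ℝ} {M b : ℝ} (hg : ContinuousWithinAt g (Icc 0 1) 0) (hb : 0 < b)
    (hb1 : b ≤ 1) (h : ∀ y ∈ Ioo 0 b, |g y| ≤ M) : |g 0| ≤ M := by
  have : (𝓝[Ioo 0 b] (0 : ℝ)).NeBot := left_nhdsWithin_Ioo_neBot hb
  have h1 : Tendsto (fun y => |g y|) (𝓝[Ioo 0 b] 0) (𝓝 |g 0|) :=
    (hg.mono fun y hy => ⟨hy.1.le, hy.2.le.trans hb1⟩).abs
  exact le_of_tendsto h1 (eventually_mem_nhdsWithin.mono h)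

end Vale.Agent.P244
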