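import Vale.Agent.P244.A.N

/-!
P244 I/E: `E` is comparable to `τ³` in the bubble region.
Plan: `filter_upwards [n_out hκ, bas_I hκ, bas_mono hκ]`.  `Rn.ex` gives `ya ∈ [0, s³]` with
`ϱ t ya = η τ`; `y ≤ ya` by strict monotonicity of `ϱ`.  At `ya`: `9/10 ≤ θ ≤ 11/10` (`n_out`),
`(η τ)³ = ϱ³ = K² = θ² h⁶` (`rho_cube`, `KK_eq`), so `h² ≤ 11/10 η τ` (compare cubes:
`lt_of_pow_lt_pow_left₀` or `pow_le_pow_left₀`), `f² = θ h² ≤ 2 η τ`.  On `[y, ya]`: `h ≤ h ya`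
(`bas_mono`), `η ≤ 1 / 1000`, so `σ ≤ 2 τ` (`sg_eq`), `|n| = f² σ² |u1| ≤ 4 Am τ² f²` (`nn_eq`,
`TrI.u1`) `≤ 8 Am τ² dX f²` (`dX_f2`, `1 / 4 ≤ a`).  `cmp_abs` for `g = EE` (`dX_EE`) and
`G = fun s z => 8 Am τ² * f2 s z` gives `|E ya - E y| ≤ 16 Am η τ³ ≤ τ³ / 50`; `n_out` at `ya`.
-/

namespace Vale.Agent.P244

open scoped ContDiff Topology
open Set Filter Real

theorem iE_cube {x θ h : ℝ} (hx : 0 ≤ x) (hθ : 9 / 10 ≤ θ) (e : x ^ 3 = (θ * h ^ 3) ^ 2) :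
    h ^ 2 ≤ 11 / 10 * x := by
  refine (pow_le_pow_iff_left₀ (sq_nonneg h) (by positivity) three_ne_zero).1 ?_
  have e1 : (11 / 10 * x) ^ 3 = 1331 / 1000 * θ ^ 2 * (h ^ 2) ^ 3 := by
    rw [mul_pow, e]
    ring
  have h6 : 0 ≤ (h ^ 2) ^ 3 := by positivity
  have h1 : 1 ≤ 1331 / 1000 * θ ^ 2 := by nlinarith
  rw [e1]
  exact le_mul_of_one_le_left h6 h1

theorem iE_n {f σ u τ M a : ℝ} (hf : 0 ≤ f) (hσ : 0 < σ) (hστ : σ ≤ 2 * τ) (hu : |u| ≤ 1 * M)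
    (ha : 1 / 4 ≤ a) : |f * σ ^ 2 * u| ≤ 8 * M * τ ^ 2 * 1 * (2 * a * f) := by
  have h1 : σ ^ 2 ≤ (2 * τ) ^ 2 := pow_le_pow_left₀ hσ.le hστ 2
  have hM : 0 ≤ M := by linarith [abs_nonneg u]
  rw [abs_mul, abs_of_nonneg (by positivity : 0 ≤ f * σ ^ 2)]
  have h2 : f * σ ^ 2 * |u| ≤ f * (2 * τ) ^ 2 * (1 * M) :=
    mul_le_mul (mul_le_mul_of_nonneg_left h1 hf) hu (abs_nonneg _) (by positivity)
  have h3 : 0 ≤ (a - 1 / 4) * (f * τ ^ 2 * M) := mul_nonneg (by linarith) (by positivity)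
  nlinarith

theorem iE_fin {M η τ fa fy : ℝ} (hM : 0 ≤ M) (hτ : 0 < τ) (hA : η * M ≤ 1 / 1000)
    (h1 : fa ≤ 2 * (η * τ)) (h2 : 0 ≤ fy) :
    8 * M * τ ^ 2 * fa - 8 * M * τ ^ 2 * fy ≤ τ ^ 3 / 50 := by
  have a1 : 8 * M * τ ^ 2 * fa ≤ 8 * M * τ ^ 2 * (2 * (η * τ)) :=
    mul_le_mul_of_nonneg_left h1 (by positivity)
  have a2 : 0 ≤ 8 * M * τ ^ 2 * fy := by positivity
  have a3 : η * M * τ ^ 3 ≤ 1 / 1000 * τ ^ 3 := mul_le_mul_of_nonneg_right hA (by positivity)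
  have a4 : 0 < τ ^ 3 := by positivity
  nlinarith

theorem i_E' {κ : Cst} (hκ : κ.Adm) : ∀ᶠ r in fam κ, ∀ t ∈ r.I, ∀ y ∈ Icc 0 (r.s ^ 3),
    r.S.rho t y ≤ κ.η * r.tau t → r.tau t ^ 3 / 2 ≤ r.S.EE t y ∧ r.S.EE t y ≤ 2 * r.tau t ^ 3 ∧
      r.S.hh t y ^ 2 ≤ 3 * κ.η * r.tau t := by
  filter_upwards [n_out hκ, bas_I hκ, bas_mono hκ] with r hn hb hm t ht y hy hr
  obtain ⟨x, ⟨ya, hya', yb, -, e1', -, -⟩, -⟩ := r.ex ht
  have hya : ya ∈ Icc 0 (r.s ^ 3) := hya'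
  have e1 : r.S.rho t ya = κ.η * r.tau t := e1'
  have hτ := r.tau_pos ht
  have hη := hκ.η
  have hAm := hκ.Am
  have hη1 : κ.η ≤ 1 / 1000 := by nlinarith [hκ.ηA]
  have sub : ∀ z ∈ Icc 0 (r.s ^ 3), z ∈ Icc (0 : ℝ) 1 := fun z hz =>
    ⟨hz.1, (hb t ht z hz).mem.2.trans (by norm_num)⟩
  have hle : y ≤ ya := ((hm t ht).1.le_iff_le hy hya).1 (e1 ▸ hr)
  obtain ⟨-, -, hθ, -, hE⟩ := hn t ht ya hya e1.ge
  obtain ⟨-, hE⟩ := hE e1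
  have hθ1 := abs_le.1 hθ
  have hh2 : r.S.hh t ya ^ 2 ≤ 11 / 10 * (κ.η * r.tau t) := by
    refine iE_cube (θ := r.S.th t ya) (by positivity) (by linarith [hθ1.2]) ?_
    rw [← e1, r.S.rho_cube (sub ya hya), St.KK_eq]
  have hf2 : r.S.f2 t ya ≤ 2 * (κ.η * r.tau t) := by
    rw [St.f2_eq]
    have h1 : r.S.th t ya * r.S.hh t ya ^ 2 ≤ 11 / 10 * (11 / 10 * (κ.η * r.tau t)) :=
      mul_le_mul (by linarith [hθ1.1]) hh2 (sq_nonneg _) (by norm_num)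
    have h2 : 0 < κ.η * r.tau t := by positivity
    linarith
  have sub2 : Icc y ya ⊆ Icc 0 (r.s ^ 3) := Icc_subset_Icc hy.1 hya.2
  have hmono : ∀ z ∈ Icc y ya, r.S.hh t z ^ 2 ≤ 11 / 10 * (κ.η * r.tau t) := fun z hz =>
    (pow_le_pow_left₀ (r.S.hh_pos t z).le ((hm t ht).2.2 (sub2 hz) hya hz.2) 2).trans hh2
  have ht0 : t ≤ r.S.τ₀ := by
    have : 0 < r.S.τ₀ - t := hτ
    linarith
  have key := cmp_abs (I := r.I) (g := r.S.EE)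
    (G := fun s z => 8 * κ.Am * r.tau t ^ 2 * r.S.f2 s z) ht hy.1 hle
    (by linarith [(hb t ht ya hya).mem.2])
    ((r.sol.sm_EE.slice ht).continuousOn.mono fun z hz => sub z (sub2 hz))
    (continuousOn_const.mul ((r.sol.sm_f2.slice ht).continuousOn.mono fun z hz => sub z (sub2 hz)))
    (fun z hz => r.sol.sm_EE.smAt ht (sub z (sub2 (Ioo_subset_Icc_self hz))))
    (fun z hz => (smAt_const _).mul (r.sol.sm_f2.smAt ht (sub z (sub2 (Ioo_subset_Icc_self hz)))))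
    fun z hz => by
      have hz' := sub2 (Ioo_subset_Icc_self hz)
      have hz1 := sub z hz'
      have u1 : |r.S.u1 t z| ≤ 1 * κ.Am := ((r.tr ht).I z hz').u1
      have h1 := hmono z (Ioo_subset_Icc_self hz)
      have h2 : κ.η * r.tau t ≤ 1 / 1000 * r.tau t := mul_le_mul_of_nonneg_right hη1 hτ.le
      rw [dX_comp r.ti ht hz1 (r.sol.sm_f2.smAt ht hz1)
        (φ := fun w => 8 * κ.Am * r.tau t ^ 2 * w) ((hasDerivAt_id _).const_mul _),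
        r.sol.dX_f2 ht hz1, r.sol.dX_EE ht hz1, r.S.nn_eq ht0]
      refine iE_n (r.S.f2_nonneg hz1) (r.S.sg_pos ht0) ?_ u1 (hb t ht z hz').a.1
      rw [St.sg_eq]
      show r.tau t + _ ≤ _
      linarith
  have h3 := key.trans (iE_fin (by linarith) hτ hκ.ηA hf2 (r.S.f2_nonneg (sub y hy)))
  have h4 := abs_le.1 h3
  have h5 := abs_le.1 hE
  have h6 : 0 < r.tau t ^ 3 := by positivity
  have h7 := hmono y ⟨le_rfl, hle⟩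
  have h8 : 0 < κ.η * r.tau t := by positivity
  refine ⟨by linarith [h4.2, h5.1], by linarith [h4.1, h5.2], ?_⟩
  rw [mul_assoc]
  linarith

end Vale.Agent.P244
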