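import Mathlib

/-!
P244 I/GainN: the gain of the barrier for `n` beats the errors and the source.
Plan: `τ + h² ≤ 2 τ`, `τ / h ≤ 2`, so `e = (τ + h²)² / h + h² ≤ 8 τ + h² ≤ 17 h` (for `h ≤ 1`).
Put `A = τ h²`, `B = τ⁵ / h³`.  The right side is at least
`θ (2/3 A + 5/3 B) - 100 C e θ (τ h² + τ²)` because `1 - θ ≥ τ³ / (2 h³)`; moreover
`e (τ h² + τ²) ≤ 2 τ² (8 τ + h²) = 16 τ³ + 2 τ A ≤ 16 τ³ + 4 h A` and `(τ + h²)³ ≤ 8 τ³`.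
Key: `A B = τ⁶ / h`, so for `h ≤ d²` one has `(A + B)² ≥ 4 A B ≥ 4 τ⁶ / d²`, i.e.
`τ³ ≤ d (A + B)` (`abs_le_abs`, `pow_le_pow_left₀`, or `by_contra` + `nlinarith`).
Take `d = 1 / (10000 (C + 1))`, `ε = d²`.
-/

namespace Vale.Agent.P244

open scoped ContDiff Topology
open Set Filter Real

theorem iGainN_key {τ h m d : ℝ} (hτ : 0 < τ) (hh : 0 < h) (hd : 0 < d) (h1 : h ≤ d ^ 2)
    (h2 : τ ^ 3 / 2 ≤ m * h ^ 3) : 0 ≤ m ∧ τ ^ 3 ≤ d * (τ * h ^ 2 + m * τ ^ 2) := by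
  have hm : 0 < m := by
    have h3 : 0 < m * h ^ 3 := lt_of_lt_of_le (by positivity) h2
    exact (mul_pos_iff_of_pos_right (by positivity)).1 h3
  refine ⟨hm.le, ?_⟩
  have a1 : τ ^ 3 * (τ ^ 3 / 2) ≤ τ ^ 3 * (m * h ^ 3) :=
    mul_le_mul_of_nonneg_left h2 (by positivity)
  have a2 : τ ^ 3 * m * h ^ 2 * h ≤ τ ^ 3 * m * h ^ 2 * d ^ 2 :=
    mul_le_mul_of_nonneg_left h1 (by positivity)
  have a3 : 0 ≤ d ^ 2 * (τ * h ^ 2 - m * τ ^ 2) ^ 2 := by positivity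
  have a4 : 0 ≤ (τ ^ 3) ^ 2 := by positivity
  refine le_of_sq_le_sq ?_ (by positivity)
  have e1 : (d * (τ * h ^ 2 + m * τ ^ 2)) ^ 2 =
      d ^ 2 * (τ * h ^ 2 - m * τ ^ 2) ^ 2 + 4 * (τ ^ 3 * m * h ^ 2 * d ^ 2) := by ring
  have e2 : τ ^ 3 * (m * h ^ 3) = τ ^ 3 * m * h ^ 2 * h := by ring
  have e3 : τ ^ 3 * (τ ^ 3 / 2) = (τ ^ 3) ^ 2 / 2 := by ring
  linarith

theorem gainN {C : ℝ} (hC : 0 ≤ C) : ∃ ε > 0, ∀ τ h θ μ Br δ : ℝ, 0 < τ → 0 < h → h ≤ ε →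
    τ ≤ 2 * h → h ^ 2 ≤ τ → 0 ≤ θ → τ ^ 3 / 2 ≤ (1 - θ) * h ^ 3 →
    δ = C * ((τ + h ^ 2) ^ 2 / h + h ^ 2) → δ ≤ 1 / 100 ∧
      (10 / 3 * θ * (1 - θ) - 100 * (δ * θ) ≤ μ → 8 / 3 * θ - 100 * (δ * θ) ≤ Br →
        C * (θ * (τ + h ^ 2) ^ 3) ≤
          -2 * τ * θ * h ^ 2 + θ * h ^ 4 + τ * h ^ 2 * Br + μ * τ ^ 2) := by
  have hd : 0 < 1 / (10000 * (C + 1)) := by positivity
  have hCd : C * (1 / (10000 * (C + 1))) ≤ 1 / 10000 := by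
    rw [mul_one_div, div_le_div_iff₀ (by positivity) (by positivity)]
    linarith
  have hd1 : 1 / (10000 * (C + 1)) ≤ 1 := by
    rw [div_le_one (by positivity)]
    linarith
  generalize 1 / (10000 * (C + 1)) = d at hd hCd hd1
  refine ⟨d ^ 2, by positivity, fun τ h θ μ Br δ hτ hh hε h1 h2 hθ h3 hδ => ?_⟩
  have b1 : τ + h ^ 2 ≤ 2 * τ := by linarith
  have b2 : (τ + h ^ 2) ^ 2 / h ≤ 8 * τ := by
    rw [div_le_iff₀ hh]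
    have c1 : (τ + h ^ 2) ^ 2 ≤ (2 * τ) ^ 2 := pow_le_pow_left₀ (by positivity) b1 2
    have c2 : τ * τ ≤ τ * (2 * h) := mul_le_mul_of_nonneg_left h1 hτ.le
    nlinarith
  have b3 : δ ≤ C * (9 * τ) := by
    rw [hδ]
    exact mul_le_mul_of_nonneg_left (by linarith) hC
  have hdd : d ^ 2 ≤ d := by nlinarith
  refine ⟨?_, fun hμ hB => ?_⟩
  · have c1 : C * (9 * τ) ≤ C * (18 * d) := mul_le_mul_of_nonneg_left (by linarith) hC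
    linarith
  · obtain ⟨hm, k⟩ := iGainN_key hτ hh hd hε h3
    have hA : 0 ≤ τ * h ^ 2 := by positivity
    have hB' : 0 ≤ (1 - θ) * τ ^ 2 := by positivity
    have c1 : τ * h ^ 2 * (8 / 3 * θ - 100 * (δ * θ)) ≤ τ * h ^ 2 * Br :=
      mul_le_mul_of_nonneg_left hB hA
    have c2 : (10 / 3 * θ * (1 - θ) - 100 * (δ * θ)) * τ ^ 2 ≤ μ * τ ^ 2 :=
      mul_le_mul_of_nonneg_right hμ (by positivity)
    have c3 : τ * h ^ 2 + τ ^ 2 ≤ 2 * τ ^ 2 := by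
      have := mul_le_mul_of_nonneg_left h2 hτ.le
      nlinarith
    have c4 : δ * (τ * h ^ 2 + τ ^ 2) ≤ C * (9 * τ) * (2 * τ ^ 2) :=
      mul_le_mul b3 c3 (by positivity) (by positivity)
    have c5 : (τ + h ^ 2) ^ 3 ≤ (2 * τ) ^ 3 := pow_le_pow_left₀ (by positivity) b1 3
    have c6 : C * (τ + h ^ 2) ^ 3 ≤ C * (2 * τ) ^ 3 := mul_le_mul_of_nonneg_left c5 hC
    have c7 : C * τ ^ 3 ≤ C * (d * (τ * h ^ 2 + (1 - θ) * τ ^ 2)) :=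
      mul_le_mul_of_nonneg_left k hC
    have c8 : C * d * (τ * h ^ 2 + (1 - θ) * τ ^ 2) ≤
        1 / 10000 * (τ * h ^ 2 + (1 - θ) * τ ^ 2) :=
      mul_le_mul_of_nonneg_right hCd (by positivity)
    have c9 : C * (τ + h ^ 2) ^ 3 + 100 * (δ * (τ * h ^ 2 + τ ^ 2)) ≤
        2 / 3 * (τ * h ^ 2) + 10 / 3 * ((1 - θ) * τ ^ 2) := by
      have e1 : C * (2 * τ) ^ 3 = 8 * (C * τ ^ 3) := by ring
      have e2 : C * (9 * τ) * (2 * τ ^ 2) = 18 * (C * τ ^ 3) := by ring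
      have e3 : C * (d * (τ * h ^ 2 + (1 - θ) * τ ^ 2)) =
          C * d * (τ * h ^ 2 + (1 - θ) * τ ^ 2) := by ring
      linarith
    have c10 := mul_le_mul_of_nonneg_left c9 hθ
    have c11 : 0 ≤ θ * h ^ 4 := by positivity
    nlinarith

end Vale.Agent.P244
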