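import Vale.Agent.P244.A.Id2

/-!
P244 I/OpN: the barrier for `n` and the operator applied to it.
Plan: `SmAt.mul`, `.sub`, `.pow`, `smAt_const`, `smAt_t` (`St.Sol.id0_sm` turns pointwise `SmAt`
into `Sm`).  Expand `Pop` by `pop_mul`, `pop_sub`, `pop_const`, `pop_time` (the functions
`fun s => (τ₀ - s) ^ 2` and `fun s => τ₀ - s` have derivatives `-2 (τ₀ - t)` and `-1`), `pop_f2`,
`pop_hh` (write `h ^ 2 = h * h`, or use `pop_hh_zpow 2`), and `dX` by `dX_mul`, `dX_sub`,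
`dX_time`, `dX_f2`, `dX_hh`; substitute `f2_eq` only inside the bracket; `ring`.
With `g = τ² - τ h²`: `Pop g = -2 τ f² + f² h² + τ h² (8 θ + 4 b²)`, `g' = -2 b τ h²`.
-/

namespace Vale.Agent.P244

open scoped ContDiff Topology
open Set Filter Real

/-- The barrier `M f² (τ² - τ h²)`. -/
noncomputable def gN (S : St) (M : ℝ) : Fn := fun t y =>
  M * (S.f2 t y * ((S.τ₀ - t) ^ 2 - (S.τ₀ - t) * S.hh t y ^ 2))

theorem sm_gN {S : St} {t₁ : ℝ} (h : S.Sol t₁) (M : ℝ) : Sm (Icc 0 t₁) (gN S M) := by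
  refine St.Sol.id0_sm fun t ht y hy => ?_
  have sτ : SmAt (Icc 0 t₁) (fun s _ => S.τ₀ - s) t y := (smAt_const S.τ₀).sub smAt_t
  exact (smAt_const M).mul ((h.sm_f2.smAt ht hy).mul
    ((sτ.pow 2).sub (sτ.mul ((h.sm_hh.smAt ht hy).pow 2))))

theorem op_gN {S : St} {t₁ t y : ℝ} (h : S.Sol t₁) (ht : t ∈ Icc 0 t₁) (hy : y ∈ Icc (0 : ℝ) 1)
    (M C μ : ℝ) : S.Pop (Icc 0 t₁) (gN S M) t y + (2 * S.aa t y - C) * dX (gN S M) t y +
      (μ + 8 + 2 * S.aa t y * C) * gN S M t y =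
    M * (S.f2 t y * (-2 * (S.τ₀ - t) * S.th t y * S.hh t y ^ 2 + S.th t y * S.hh t y ^ 4 +
      (S.τ₀ - t) * S.hh t y ^ 2 *
        (8 * S.th t y + 4 * S.bb t y ^ 2 + 2 * S.bb t y * (C + 2 * S.aa t y) - μ) +
      μ * (S.τ₀ - t) ^ 2)) := by
  have hI := h.ti
  have sτ : SmAt (Icc 0 t₁) (fun s _ => S.τ₀ - s) t y := (smAt_const S.τ₀).sub smAt_t
  have sτ2 : SmAt (Icc 0 t₁) (fun s _ => (S.τ₀ - s) ^ 2) t y := sτ.pow 2
  have sh := h.sm_hh.smAt ht hy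
  have sh2 : SmAt (Icc 0 t₁) (fun s z => S.hh s z ^ 2) t y := sh.pow 2
  have sf := h.sm_f2.smAt ht hy
  have sg := sτ2.sub (sτ.mul sh2)
  have d1 : HasDerivAt (fun s => S.τ₀ - s) (-1) t := (hasDerivAt_id t).const_sub S.τ₀
  have d2 : HasDerivAt (fun s => (S.τ₀ - s) ^ 2) (-2 * (S.τ₀ - t)) t :=
    (d1.pow 2).congr_deriv (by simp)
  have e2 : (fun s z => S.hh s z ^ 2) = fun s z => S.hh s z * S.hh s z := by
    funext s z
    ring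
  have x1 : dX (fun s z => S.hh s z ^ 2) t y = 2 * S.bb t y * S.hh t y ^ 2 := by
    rw [e2, dX_mul hI ht hy sh sh, h.dX_hh ht hy]
    ring
  have p1 : S.Pop (Icc 0 t₁) (fun s z => S.hh s z ^ 2) t y =
      S.hh t y ^ 2 * (-8 * S.th t y - 4 * S.bb t y ^ 2) := by
    rw [e2, pop_mul hI ht hy S sh sh, h.dX_hh ht hy, h.pop_hh ht hy]
    ring
  have xτ : dX (fun s _ => S.τ₀ - s) t y = 0 := dX_time hI ht hy fun s => S.τ₀ - s
  have xτ2 : dX (fun s _ => (S.τ₀ - s) ^ 2) t y = 0 := dX_time hI ht hy fun s => (S.τ₀ - s) ^ 2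
  have pτ : S.Pop (Icc 0 t₁) (fun s _ => S.τ₀ - s) t y = S.f2 t y * (-1) := pop_time hI ht hy S d1
  have pτ2 : S.Pop (Icc 0 t₁) (fun s _ => (S.τ₀ - s) ^ 2) t y = S.f2 t y * (-2 * (S.τ₀ - t)) :=
    pop_time hI ht hy S d2
  have xg := dX_sub hI ht hy sτ2 (sτ.mul sh2)
  rw [dX_mul hI ht hy sτ sh2, xτ, xτ2, x1] at xg
  have pg := pop_sub hI ht hy S sτ2 (sτ.mul sh2)
  rw [pop_mul hI ht hy S sτ sh2, xτ, pτ, pτ2, p1, S.f2_eq] at pg
  have xf := dX_mul hI ht hy sf sg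
  have pf := pop_mul hI ht hy S sf sg
  rw [xg, h.dX_f2 ht hy] at xf pf
  rw [pg, h.pop_f2 ht hy] at pf
  obtain ⟨a1, a2⟩ := h.id2_cm ht hy (sf.mul sg) M
  rw [xf] at a1
  rw [pf] at a2
  have b1 : dX (gN S M) t y = _ := a1
  have b2 : S.Pop (Icc 0 t₁) (gN S M) t y = _ := a2
  rw [b1, b2, gN]
  ring

end Vale.Agent.P244
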