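import Mathlib

/-!
P244 I/RealN: real number inequalities (bubble values plus errors) for the barrier of `n`.
Plan: put `w = δ θ` (`0 ≤ w ≤ θ / 100 ≤ 1 / 100`), `p = Sg / 3 - vt`, `a = a0 + p`, `b = b0 + vt`
with `a0 = 1 - θ / 3`, `b0 = 2 θ / 3`, `|p| ≤ 4 w / 3`.  Put `i = 1 / (3 + θ)`, so
`1 / 4 ≤ i ≤ 1 / 3`, `i (3 + θ) = 1`, `C = -16 θ i + r`, `C' = -96 θ (a - b) i² + r'`,
`|r|, |r'| ≤ w`, `a - b = 1 - θ + p - vt`.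
Bubble values: `μ0 = θ (1 - θ) (96 i² - 8 / 3) ≥ 10 / 3 θ (1 - θ)` (as `i² ≥ 1 / 16`);
bracket `θ Q`, `Q = 32/3 + 8 θ/9 - 64 θ i / 3 - (1 - θ) (96 i² - 8/3) ≥ 8/3` on `[0, 1]`
(equality at `θ = 0`; multiply by `(3 + θ)²`: a polynomial `θ (80 - 64 θ / 3 - 16 θ² / 9) ≥ 0`);
`8 + 2 a0 (-16 θ i) ≥ 8 / 3`.  Errors: `|μ - μ0| ≤ 44 w`, bracket `≤ 67 w`, third `≤ 60 w`.
Prove each error term in a separate `have` (or lemma) with `abs_le`, `nlinarith`.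
-/

namespace Vale.Agent.P244

open scoped ContDiff Topology
open Set Filter Real

theorem iRealN_mul {x y X Y : ℝ} (hx : |x| ≤ X) (hy : |y| ≤ Y) : -(X * Y) ≤ x * y ∧ x * y ≤ X * Y := by
  have : |x * y| ≤ X * Y := by
    rw [abs_mul]
    exact mul_le_mul hx hy (abs_nonneg _) ((abs_nonneg _).trans hx)
  exact abs_le.1 this

theorem iRealN_Q {θ i : ℝ} (h0 : 0 ≤ θ) (h1 : θ ≤ 1) (hi : i = 1 / (3 + θ)) :
    8 / 3 ≤ 32 / 3 + 8 * θ / 9 - 64 * θ * i / 3 - (1 - θ) * (96 * i ^ 2 - 8 / 3) := by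
  have e : 32 / 3 + 8 * θ / 9 - 64 * θ * i / 3 - (1 - θ) * (96 * i ^ 2 - 8 / 3) - 8 / 3
      = θ * (80 - 64 * θ / 3 - 16 * θ ^ 2 / 9) / (3 + θ) ^ 2 := by
    rw [hi]; field_simp; ring
  have : 0 ≤ θ * (80 - 64 * θ / 3 - 16 * θ ^ 2 / 9) / (3 + θ) ^ 2 := by
    have : 0 ≤ 80 - 64 * θ / 3 - 16 * θ ^ 2 / 9 := by nlinarith
    positivity
  linarith

theorem iRealN_t {θ i : ℝ} (h0 : 0 ≤ θ) (h1 : θ ≤ 1) (i0 : 1 / 4 ≤ i) (i1 : i ≤ 1 / 3) :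
    |θ| ≤ 1 ∧ |θ * i| ≤ 1 / 3 ∧ |θ * i ^ 2| ≤ 1 / 9 := by
  have hi : 0 ≤ i := by linarith
  refine ⟨by rwa [abs_of_nonneg h0], ?_, ?_⟩
  · rw [abs_of_nonneg (by positivity)]; nlinarith
  · rw [abs_of_nonneg (by positivity)]
    have : i ^ 2 ≤ 1 / 9 := by nlinarith
    nlinarith [sq_nonneg i]

theorem iRealN_e1 {θ i p v r' w : ℝ} (h0 : 0 ≤ θ) (h1 : θ ≤ 1) (i0 : 1 / 4 ≤ i) (i1 : i ≤ 1 / 3)
    (w1 : w ≤ 1 / 100) (bp : |p| ≤ 4 / 3 * w) (bv : |v| ≤ w) (br : |r'| ≤ w) :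
    |8 * p - 8 / 3 * (θ * p) + 4 * (p * p) + 20 / 3 * (θ * v) + 5 * (v * v)
      + 96 * (θ * i ^ 2 * p) - 96 * (θ * i ^ 2 * v) - r'| ≤ 60 * w := by
  obtain ⟨bθ, -, bti2⟩ := iRealN_t h0 h1 i0 i1
  have q1 := iRealN_mul bθ bp
  have q2 := iRealN_mul (show |p| ≤ 1 by linarith) bp
  have q3 := iRealN_mul bθ bv
  have q4 := iRealN_mul (show |v| ≤ 1 by linarith) bv
  have q5 := iRealN_mul bti2 bp
  have q6 := iRealN_mul bti2 bv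
  have w0 := (abs_nonneg _).trans bv
  rw [abs_le] at bp br ⊢
  constructor <;> linarith [q1.1, q1.2, q2.1, q2.2, q3.1, q3.2, q4.1, q4.2, q5.1, q5.2, q6.1, q6.2,
    bp.1, bp.2, br.1, br.2]

theorem iRealN_e2 {θ i p v r w : ℝ} (h0 : 0 ≤ θ) (h1 : θ ≤ 1) (i0 : 1 / 4 ≤ i) (i1 : i ≤ 1 / 3)
    (w1 : w ≤ 1 / 100) (bp : |p| ≤ 4 / 3 * w) (bv : |v| ≤ w) (br : |r| ≤ w) :
    -(40 * w) ≤ 16 / 3 * (θ * v) + 4 * (v * v) + 4 / 3 * (θ * r) + 8 / 3 * (θ * p)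
      - 32 * (θ * i * v) + 4 * v - 4 / 3 * (θ * v) + 2 * (v * r) + 4 * (v * p) := by
  obtain ⟨bθ, bti, -⟩ := iRealN_t h0 h1 i0 i1
  have q1 := iRealN_mul bθ bp
  have q3 := iRealN_mul bθ bv
  have q4 := mul_self_nonneg v
  have q7 := iRealN_mul bθ br
  have q8 := iRealN_mul bti bv
  have q9 := iRealN_mul (show |v| ≤ 1 by linarith) br
  have q10 := iRealN_mul (show |v| ≤ 1 by linarith) bp
  have w0 := (abs_nonneg _).trans bv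
  rw [abs_le] at bv
  linarith [q1.1, q3.1, q7.1, q8.2, q9.1, q10.1, bv.1]

theorem iRealN_e3 {θ i p r w : ℝ} (h0 : 0 ≤ θ) (h1 : θ ≤ 1) (i0 : 1 / 4 ≤ i) (i1 : i ≤ 1 / 3)
    (w1 : w ≤ 1 / 100) (bp : |p| ≤ 4 / 3 * w) (br : |r| ≤ w) :
    -(20 * w) ≤ 2 * r - 2 / 3 * (θ * r) - 32 * (θ * i * p) + 2 * (p * r) := by
  obtain ⟨bθ, bti, -⟩ := iRealN_t h0 h1 i0 i1
  have q7 := iRealN_mul bθ br
  have q11 := iRealN_mul bti bp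
  have q12 := iRealN_mul (show |p| ≤ 1 by linarith) br
  have w0 := (abs_nonneg _).trans br
  rw [abs_le] at br
  linarith [q7.2, q11.2, q12.1, br.1]

theorem iRealN_core {θ i p v r r' w a b C μ : ℝ} (h0 : 0 ≤ θ) (h1 : θ ≤ 1) (hi : i = 1 / (3 + θ))
    (w1 : w ≤ 1 / 100) (bp : |p| ≤ 4 / 3 * w) (bv : |v| ≤ w) (br : |r| ≤ w) (br' : |r'| ≤ w)
    (ea : a = 1 - θ / 3 + p) (hb : b = v + 2 / 3 * θ) (eC : C = r - 16 * θ * i)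
    (hμ : μ = 4 * a ^ 2 + 5 * b ^ 2 - 4 - (r' - 96 * θ * i ^ 2 * (a - b))) :
    10 / 3 * θ * (1 - θ) - 100 * w ≤ μ ∧
      8 / 3 * θ - 100 * w ≤ 8 * θ + 4 * b ^ 2 + 2 * b * (C + 2 * a) - μ ∧
      0 < μ + 8 + 2 * a * C := by
  have w0 := (abs_nonneg _).trans bv
  have i0 : 1 / 4 ≤ i := by
    rw [hi]; exact one_div_le_one_div_of_le (by linarith) (by linarith)
  have i1 : i ≤ 1 / 3 := by
    rw [hi]; exact one_div_le_one_div_of_le (by linarith) (by linarith)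
  have i2 : (3 + θ) * i = 1 := by rw [hi]; field_simp
  obtain ⟨m, hm⟩ : ∃ m : ℝ, m = θ * (1 - θ) * (96 * i ^ 2 - 8 / 3) := ⟨_, rfl⟩
  have eμ : μ = m + (8 * p - 8 / 3 * (θ * p) + 4 * (p * p) + 20 / 3 * (θ * v) + 5 * (v * v)
      + 96 * (θ * i ^ 2 * p) - 96 * (θ * i ^ 2 * v) - r') := by
    rw [hμ, ea, hb, hm]; ring
  have E1 := iRealN_e1 h0 h1 i0 i1 w1 bp bv br'
  have E2 := iRealN_e2 h0 h1 i0 i1 w1 bp bv br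
  have E3 := iRealN_e3 h0 h1 i0 i1 w1 bp br
  have hQ := mul_le_mul_of_nonneg_left (iRealN_Q h0 h1 hi) h0
  have f2 : 8 * θ + 4 * b ^ 2 + 2 * b * (C + 2 * a)
      = θ * (32 / 3 + 8 * θ / 9 - 64 * θ * i / 3 - (1 - θ) * (96 * i ^ 2 - 8 / 3)) + m
        + (16 / 3 * (θ * v) + 4 * (v * v) + 4 / 3 * (θ * r) + 8 / 3 * (θ * p)
          - 32 * (θ * i * v) + 4 * v - 4 / 3 * (θ * v) + 2 * (v * r) + 4 * (v * p)) := by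
    rw [eC, ea, hb, hm]; ring
  have f3 : 2 * a * C = -32 * ((1 - θ / 3) * θ * i)
      + (2 * r - 2 / 3 * (θ * r) - 32 * (θ * i * p) + 2 * (p * r)) := by
    rw [eC, ea]; ring
  have t : (1 - θ / 3) * θ * i ≤ 1 / 6 := by
    have : (1 - θ / 3) * θ ≤ (3 + θ) / 6 := by nlinarith
    calc (1 - θ / 3) * θ * i ≤ (3 + θ) / 6 * i :=
          mul_le_mul_of_nonneg_right this (by linarith)
      _ = (3 + θ) * i / 6 := by ring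
      _ = 1 / 6 := by rw [i2]
  have hθ : 0 ≤ θ * (1 - θ) := mul_nonneg h0 (by linarith)
  have m1 : 10 / 3 * θ * (1 - θ) ≤ m := by
    have : 10 / 3 ≤ 96 * i ^ 2 - 8 / 3 := by nlinarith
    calc 10 / 3 * θ * (1 - θ) = θ * (1 - θ) * (10 / 3) := by ring
      _ ≤ _ := mul_le_mul_of_nonneg_left this hθ
      _ = m := hm.symm
  have m0 : 0 ≤ 10 / 3 * θ * (1 - θ) := by
    rw [mul_assoc]; positivity
  rw [f2, f3]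
  generalize 8 * p - 8 / 3 * (θ * p) + 4 * (p * p) + 20 / 3 * (θ * v) + 5 * (v * v)
      + 96 * (θ * i ^ 2 * p) - 96 * (θ * i ^ 2 * v) - r' = x1 at eμ E1
  generalize 16 / 3 * (θ * v) + 4 * (v * v) + 4 / 3 * (θ * r) + 8 / 3 * (θ * p)
      - 32 * (θ * i * v) + 4 * v - 4 / 3 * (θ * v) + 2 * (v * r) + 4 * (v * p) = x2 at E2 ⊢
  generalize 2 * r - 2 / 3 * (θ * r) - 32 * (θ * i * p) + 2 * (p * r) = x3 at E3 ⊢
  generalize θ * (32 / 3 + 8 * θ / 9 - 64 * θ * i / 3 - (1 - θ) * (96 * i ^ 2 - 8 / 3)) = x4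
    at hQ ⊢
  generalize (1 - θ / 3) * θ * i = x5 at t ⊢
  generalize 10 / 3 * θ * (1 - θ) = x6 at m0 m1 ⊢
  obtain ⟨l1, l2⟩ := abs_le.1 E1
  refine ⟨?_, ?_, ?_⟩
  · linarith only [eμ, l1, m1, w0]
  · linarith only [eμ, l2, E2, hQ]
  · linarith only [eμ, l1, m1, m0, E3, t, w1]

theorem realN {θ a b Sg vt C C' δ μ : ℝ} (h0 : 0 ≤ θ) (h1 : θ ≤ 1) (hδ0 : 0 ≤ δ)
    (hδ : δ ≤ 1 / 100) (ha : a = 1 - θ / 3 + Sg / 3 - vt) (hb : b = vt + 2 / 3 * θ)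
    (hS : |Sg| ≤ δ * θ) (hv : |vt| ≤ δ * θ) (hC : |C + 16 * θ / (3 + θ)| ≤ δ * θ)
    (hC' : |C' + 96 * θ * (a - b) / (3 + θ) ^ 2| ≤ δ * θ)
    (hμ : μ = 4 * a ^ 2 + 5 * b ^ 2 - 4 - C') :
    10 / 3 * θ * (1 - θ) - 100 * (δ * θ) ≤ μ ∧
      8 / 3 * θ - 100 * (δ * θ) ≤ 8 * θ + 4 * b ^ 2 + 2 * b * (C + 2 * a) - μ ∧
      0 < μ + 8 + 2 * a * C := by
  have w1 : δ * θ ≤ 1 / 100 := by nlinarith
  have bS := abs_le.1 hS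
  have bv := abs_le.1 hv
  refine iRealN_core (i := 1 / (3 + θ)) (p := Sg / 3 - vt) (v := vt)
    (r := C + 16 * θ / (3 + θ)) (r' := C' + 96 * θ * (a - b) / (3 + θ) ^ 2) h0 h1 rfl w1 ?_ hv hC
    hC' (by rw [ha]; ring) hb (by ring) ?_
  · rw [abs_le]; constructor <;> linarith [bS.1, bS.2, bv.1, bv.2]
  · rw [hμ, one_div, inv_pow]; ring

end Vale.Agent.P244
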