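import Vale.Agent.P244.A.P1

/-!
P244 I/Sym: the error terms of the barrier for `n`, by the symbol calculus.
Plan: take `C₁` from `p0_ab hκ 1`, `C₂` from `p1 hκ 1`; let `q r` be the conjunction of these two
properties and `bas_I` (and `r.s ≤ 1 / 10`).  Context on `Ix q`: `cf y = 2 * (y * (1 - y))`,
`J i = Ico 0 1`, `Ω i = Icc 0 (s ^ 3)`, `N = 1`; `IC c 0` and `u1, u2 ∈ Sy 1 1` by `sy_of_iter`
(or `sy_succ`), `IC.iter_F`, `IC.smo`, `IC.smo_u2`.  With the weight `w = θ (σ² / h + h²)`: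
`IC.vt`, `IC.kk2` (`m = 0`) are in `Sy 1 w`; `Sg` is in `Sy 1 f²`, `f² = θ h² ≤ w`.
`R = C1 + 16 θ / (3 + θ) = -(k - 2) θ - 3 ϑ - θ (1 - θ) (k - 2) (3 + θ)⁻¹` (`C1_eq`) is in `Sy 1 w`
(`Sy.mul` with `IC.th1`, `IC.th3_inv`, `sy_const`, `Sy.congr`, `Sy.mono`), so `|R|, |dX R| ≤ C w`;
`dX R = dX C1 + 48 / (3 + θ)² dX θ` (`dX_add`, `dX_comp`) and `dX_th`.
`cE Sg EE` is in `Sy 1 (θ f² σ³)` (`IC.cE`, `IC.Sg`, `IC.EE` with `TrI.E`, `Sy.of_le`), and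
`|a| ≤ 1`.  Take the sum of all constants; all weights are nonnegative.
-/

namespace Vale.Agent.P244

open scoped ContDiff Topology
open Set Filter Real

theorem iSym_sy {κ : Cst} {q : Rn κ → Prop} {c : Ctx (Ix q)}
    (hcf : c.cf = fun y => 2 * (y * (1 - y))) (hN : ∀ i y, c.N i y = 1) {g : St → Fn}
    (hs : c.Smo (F g)) {C : ℝ}
    (h : ∀ k ≤ 1, ∀ i : Ix q, ∀ y ∈ c.Ω i, |dX^[k] (g i.1.1.S) i.1.2 y| ≤ C) :
    c.Sy 1 (fun _ _ => 1) (F g) := by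
  have e : ∀ k, c.D^[k] (F g) = F fun S => dX^[k] (g S) := fun k => by
    funext i
    rw [Ctx.D_iter, hcf]
    exact (dX_iter_eq_dl _ _ k).symm
  refine Ctx.sy_of_iter hs (fun k hk => ⟨max C 0, le_max_right _ _, fun i y hy => ?_⟩)
    ⟨max C 0, le_max_right _ _, fun i y hy => ?_⟩
  · rw [e, abs_one, mul_one]
    exact (h k hk.le i y hy).trans (le_max_left _ _)
  · simp only [e, hN, mul_one, abs_one]
    exact (h 1 le_rfl i y hy).trans (le_max_left _ _)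

theorem iSym_fin {x w w' a C : ℝ} (h : |x| ≤ a * |w|) (hw : 0 ≤ w) (ha : a ≤ C)
    (e : C * w = w') : |x| ≤ w' := by
  rw [abs_of_nonneg hw] at h
  exact h.trans ((mul_le_mul_of_nonneg_right ha hw).trans_eq e)

theorem iSym_dX {S : St} {t₁ t y : ℝ} (h : S.Sol t₁) (ht : t ∈ Icc 0 t₁)
    (hy : y ∈ Icc (0 : ℝ) 1) :
    dX (fun s z => S.C1 s z + 16 * S.th s z / (3 + S.th s z)) t y =
      dX S.C1 t y + 96 * S.th t y * (S.aa t y - S.bb t y) / (3 + S.th t y) ^ 2 := by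
  have h0 : 3 + S.th t y ≠ 0 := by linarith [S.th_nonneg (t := t) hy]
  have a := h.sm_th.smAt ht hy
  have d : HasDerivAt (fun x : ℝ => 16 * x / (3 + x)) (48 / (3 + S.th t y) ^ 2) (S.th t y) := by
    refine (((hasDerivAt_id' (S.th t y)).const_mul 16).fun_div
      ((hasDerivAt_id' (S.th t y)).const_add 3) h0).congr_deriv ?_
    ring
  rw [dX_add h.ti ht hy (h.sm_C1.smAt ht hy)
    (((smAt_const 16).mul a).div ((smAt_const 3).add a) h0), dX_comp h.ti ht hy a d,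
    h.dX_th ht hy]
  ring

theorem iSym_core {κ : Cst} {q : Rn κ → Prop} {c : Ctx (Ix q)} (hc : IC c 0)
    (hN : ∀ i y, c.N i y = 1) (h1 : c.Sy 1 (fun _ _ => 1) (F St.u1))
    (h2 : c.Sy 1 (fun _ _ => 1) (F St.u2))
    (hE : c.Bd (fun i y => F St.sg i y ^ 3) (F St.EE)) :
    c.Bd (fun i y => F St.th i y * (F St.sg i y ^ 2 / F St.hh i y + F St.hh i y ^ 2))
      (F fun S t y => S.C1 t y + 16 * S.th t y / (3 + S.th t y)) ∧
    c.Bd (fun i y => F St.th i y * (F St.sg i y ^ 2 / F St.hh i y + F St.hh i y ^ 2))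
      (F fun S t y => dX S.C1 t y + 96 * S.th t y * (S.aa t y - S.bb t y) / (3 + S.th t y) ^ 2) ∧
    c.Bd (fun i y => F St.th i y * F St.f2 i y * F St.sg i y ^ 3)
      (F fun S t y => dX (fun s z => S.cE s z * S.Sg s z * S.EE s z) t y -
        2 * S.aa t y * (S.cE t y * S.Sg t y * S.EE t y)) := by
  have k1 := syI_mul (hc.kk2 le_rfl h1 h2) hc.th1
  have R : c.Sy 1 (fun i y => F St.th i y * (F St.sg i y ^ 2 / F St.hh i y + F St.hh i y ^ 2))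
      (F fun S t y => S.C1 t y + 16 * S.th t y / (3 + S.th t y)) := by
    refine ((k1.neg.sub ((hc.vt le_rfl h1 h2).cmul 3)).sub (syI_mul (syI_mul k1
      ((syI_const c _ 1).sub hc.th1)) hc.th3_inv)).congr fun i y hy => ?_
    simp only [F, St.C1_eq _ (hc.memJ hy)]
    ring
  have T : c.Sy 1 (fun i y => F St.th i y * F St.f2 i y * F St.sg i y ^ 3)
      (F fun S s z => S.cE s z * S.Sg s z * S.EE s z) :=
    (hc.cE.mul (hc.Sg le_rfl h2)).mul (hc.EE le_rfl h1 hE).pred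
  refine ⟨R.bd, R.D.top.congr' (fun i y hy => ?_) fun i y _ => by rw [hN, mul_one], ?_⟩
  · rw [hc.D_F]
    exact (iSym_dX i.1.1.sol i.2.2 (hc.memΩ hy)).symm
  · have T1 : c.Bd (fun i y => F St.th i y * F St.f2 i y * F St.sg i y ^ 3) _ :=
      T.D.top.congr' (fun _ _ _ => rfl) fun i y _ => by rw [hN, mul_one]
    have T2 : c.Bd (fun i y => F St.th i y * F St.f2 i y * F St.sg i y ^ 3) _ :=
      ((hc.aa.bd.mul' T.bd).cmul' (-2)).congr' (fun _ _ _ => rfl) fun i y _ => by rw [one_mul]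
    refine (T1.add' T2).congr' (fun i y _ => ?_) fun _ _ _ => rfl
    rw [hc.D_F]
    simp only [F]
    ring

theorem i_sym {κ : Cst} (hκ : κ.Adm) : ∃ C, 0 ≤ C ∧ ∀ᶠ r in fam κ, ∀ t ∈ r.I,
    ∀ y ∈ Icc 0 (r.s ^ 3),
      |r.S.Sg t y| ≤ C * (r.S.sg t y ^ 2 / r.S.hh t y + r.S.hh t y ^ 2) * r.S.th t y ∧
      |r.S.vt t y| ≤ C * (r.S.sg t y ^ 2 / r.S.hh t y + r.S.hh t y ^ 2) * r.S.th t y ∧
      |r.S.C1 t y + 16 * r.S.th t y / (3 + r.S.th t y)| ≤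
        C * (r.S.sg t y ^ 2 / r.S.hh t y + r.S.hh t y ^ 2) * r.S.th t y ∧
      |dX r.S.C1 t y + 96 * r.S.th t y * (r.S.aa t y - r.S.bb t y) / (3 + r.S.th t y) ^ 2| ≤
        C * (r.S.sg t y ^ 2 / r.S.hh t y + r.S.hh t y ^ 2) * r.S.th t y ∧
      |dX (fun s z => r.S.cE s z * r.S.Sg s z * r.S.EE s z) t y -
        2 * r.S.aa t y * (r.S.cE t y * r.S.Sg t y * r.S.EE t y)| ≤
        r.S.f2 t y * (C * (r.S.th t y * r.S.sg t y ^ 3)) := by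
  obtain ⟨C₁, e1⟩ := p0_ab hκ 1
  obtain ⟨C₂, e2⟩ := p1 hκ 1
  let q : Rn κ → Prop := fun r =>
    (∀ i ≤ 1, ∀ t ∈ r.I, ∀ y ∈ Icc (0 : ℝ) 1, |dX^[i] r.S.aa t y| ≤ C₁ ∧ |dX^[i] r.S.bb t y| ≤ C₁) ∧
    (∀ i ≤ 1, ∀ t ∈ r.I, ∀ y ∈ Icc 0 (r.s ^ 3),
      |dX^[i] r.S.u1 t y| ≤ C₂ ∧ |dX^[i] r.S.u2 t y| ≤ C₂) ∧
    (∀ t ∈ r.I, ∀ y ∈ Icc 0 (r.s ^ 3), BasI r.S t y)
  have hq : ∀ᶠ r in fam κ, q r := e1.and (e2.and (bas_I hκ))
  have hsub : ∀ i : Ix q, Icc 0 (i.1.1.s ^ 3) ⊆ Ico 0 1 := fun i y hy =>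
    ⟨hy.1, by linarith [(i.2.1.2.2 _ i.2.2 y hy).mem.2]⟩
  let c : Ctx (Ix q) :=
    { cf := fun y => 2 * (y * (1 - y))
      J := fun _ => Ico 0 1
      Ω := fun i => Icc 0 (i.1.1.s ^ 3)
      N := fun _ _ => 1
      sm := by fun_prop
      ro := fun _ => ro_Ico
      sub := hsub
      one := fun _ _ _ => le_rfl }
  have hN : ∀ i y, c.N i y = 1 := fun _ _ => rfl
  have hΩ : ∀ (i : Ix q) {y}, y ∈ c.Ω i → y ∈ Icc (0 : ℝ) 1 := fun i y hy =>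
    Ico_subset_Icc_self (hsub i hy)
  have hs : ∀ {g : St → Fn}, (∀ (S : St) t₁, S.Sol t₁ → Sm (Icc 0 t₁) (g S)) → c.Smo (F g) :=
    fun h i y hy => (h _ _ i.1.1.sol).slice i.2.2 y (Ico_subset_Icc_self hy)
  have hc : IC c 0 := ⟨rfl, fun _ => subset_rfl, fun i y hy => i.2.1.2.2 _ i.2.2 y hy,
    iSym_sy rfl hN (hs fun _ _ h => h.sm_aa) fun k hk i y hy => (i.2.1.1 k hk _ i.2.2 y (hΩ i hy)).1,
    iSym_sy rfl hN (hs fun _ _ h => h.sm_bb) fun k hk i y hy =>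
      (i.2.1.1 k hk _ i.2.2 y (hΩ i hy)).2⟩
  have h1 : c.Sy 1 (fun _ _ => 1) (F St.u1) :=
    iSym_sy rfl hN (hs fun _ _ h => h.sm_u1) fun k hk i y hy => (i.2.1.2.1 k hk _ i.2.2 y hy).1
  have h2 : c.Sy 1 (fun _ _ => 1) (F St.u2) :=
    iSym_sy rfl hN hc.smo_u2 fun k hk i y hy => (i.2.1.2.1 k hk _ i.2.2 y hy).2
  have hE : c.Bd (fun i y => F St.sg i y ^ 3) (F St.EE) := by
    refine ⟨κ.AE, zero_le_one.trans hκ.AE, fun i y hy => ?_⟩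
    have := ((i.1.1.tr i.2.2).I y hy).E
    rw [one_mul] at this
    exact this.trans (mul_le_mul_of_nonneg_left (le_abs_self _) (zero_le_one.trans hκ.AE))
  obtain ⟨a1, p1, b1⟩ := (hc.Sg' le_rfl h2).bd
  obtain ⟨a2, p2, b2⟩ := (hc.vt le_rfl h1 h2).bd
  obtain ⟨⟨a3, p3, b3⟩, ⟨a4, p4, b4⟩, a5, p5, b5⟩ := iSym_core hc hN h1 h2 hE
  refine ⟨a1 + a2 + a3 + a4 + a5, by positivity, hq.mono fun r hr t ht y hy => ?_⟩
  let i : Ix q := ⟨(r, t), hr, ht⟩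
  have t0 : 0 ≤ F St.th i y := St.th_nonneg _ (hΩ i hy)
  have f0 : 0 ≤ F St.f2 i y := St.f2_nonneg _ (hΩ i hy)
  have h0 : 0 < F St.hh i y := St.hh_pos _ _ _
  have s0 : 0 < F St.sg i y := St.sg_pos _ (IC.tle i)
  refine ⟨iSym_fin (b1 i y hy) (by positivity) (C := a1 + a2 + a3 + a4 + a5) (by linarith) ?_,
    iSym_fin (b2 i y hy) (by positivity) (C := a1 + a2 + a3 + a4 + a5) (by linarith) ?_,
    iSym_fin (b3 i y hy) (by positivity) (C := a1 + a2 + a3 + a4 + a5) (by linarith) ?_,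
    iSym_fin (b4 i y hy) (by positivity) (C := a1 + a2 + a3 + a4 + a5) (by linarith) ?_,
    iSym_fin (b5 i y hy) (by positivity) (C := a1 + a2 + a3 + a4 + a5) (by linarith) ?_⟩ <;>
  · simp only [F, i]
    ring

end Vale.Agent.P244
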