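import Vale.Agent.P244.I.Bar
import Vale.Agent.P244.I.OpN
import Vale.Agent.P244.I.RealN
import Vale.Agent.P244.I.GainN
import Vale.Agent.P244.I.Sym
import Vale.Agent.P244.I.E

/-!
P244 I/MainN: the barrier argument for `n` in the bubble region.
-/

namespace Vale.Agent.P244

open scoped ContDiff Topology
open Set Filter Real

theorem iN_int {S : St} {t₁ t y C M : ℝ} (h : S.Sol t₁) (ht : t ∈ Icc 0 t₁)
    (hy : y ∈ Icc (0 : ℝ) 1) (hC : 0 ≤ C) (hM : 1 ≤ M) (hE : (S.τ₀ - t) ^ 3 / 2 ≤ S.EE t y)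
    (hg : ∀ μ Br δ : ℝ, δ = C * ((S.τ₀ - t + S.hh t y ^ 2) ^ 2 / S.hh t y + S.hh t y ^ 2) →
      δ ≤ 1 / 100 ∧ (10 / 3 * S.th t y * (1 - S.th t y) - 100 * (δ * S.th t y) ≤ μ →
        8 / 3 * S.th t y - 100 * (δ * S.th t y) ≤ Br →
        C * (S.th t y * (S.τ₀ - t + S.hh t y ^ 2) ^ 3) ≤
          -2 * (S.τ₀ - t) * S.th t y * S.hh t y ^ 2 + S.th t y * S.hh t y ^ 4 +
            (S.τ₀ - t) * S.hh t y ^ 2 * Br + μ * (S.τ₀ - t) ^ 2))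
    (h1 : |S.Sg t y| ≤ C * (S.sg t y ^ 2 / S.hh t y + S.hh t y ^ 2) * S.th t y ∧
      |S.vt t y| ≤ C * (S.sg t y ^ 2 / S.hh t y + S.hh t y ^ 2) * S.th t y ∧
      |S.C1 t y + 16 * S.th t y / (3 + S.th t y)| ≤
        C * (S.sg t y ^ 2 / S.hh t y + S.hh t y ^ 2) * S.th t y ∧
      |dX S.C1 t y + 96 * S.th t y * (S.aa t y - S.bb t y) / (3 + S.th t y) ^ 2| ≤
        C * (S.sg t y ^ 2 / S.hh t y + S.hh t y ^ 2) * S.th t y ∧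
      |dX (fun s z => S.cE s z * S.Sg s z * S.EE s z) t y -
        2 * S.aa t y * (S.cE t y * S.Sg t y * S.EE t y)| ≤
        S.f2 t y * (C * (S.th t y * S.sg t y ^ 3))) :
    ∃ α c : ℝ, 0 < c ∧ |S.Pop (Icc 0 t₁) S.nn t y + α * dX S.nn t y + c * S.nn t y| ≤
      S.Pop (Icc 0 t₁) (gN S M) t y + α * dX (gN S M) t y + c * gN S M t y := by
  obtain ⟨s1, s2, s3, s4, s5⟩ := h1
  rw [S.sg_eq] at s1 s2 s3 s4 s5
  have hτ : 0 < S.τ₀ - t := by linarith [h.lt, ht.2]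
  have hh := S.hh_pos t y
  have h0 := S.th_nonneg (t := t) hy
  have hθ : S.th t y ≤ 1 := by
    rw [S.EE_eq] at hE
    have : 0 < (1 - S.th t y) * S.hh t y ^ 3 := lt_of_lt_of_le (by positivity) hE
    exact (sub_pos.1 ((mul_pos_iff_of_pos_right (by positivity)).1 this)).le
  obtain ⟨g1, g2⟩ := hg (4 * S.aa t y ^ 2 + 5 * S.bb t y ^ 2 - 4 - dX S.C1 t y)
    (8 * S.th t y + 4 * S.bb t y ^ 2 + 2 * S.bb t y * (S.C1 t y + 2 * S.aa t y) -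
      (4 * S.aa t y ^ 2 + 5 * S.bb t y ^ 2 - 4 - dX S.C1 t y)) _ rfl
  obtain ⟨r1, r2, r3⟩ := realN h0 hθ (by positivity) g1 S.aa_eq S.bb_eq s1 s2 s3 s4 rfl
  refine ⟨2 * S.aa t y - S.C1 t y, _, r3, ?_⟩
  have g3 := g2 r1 r2
  have e : S.Pop (Icc 0 t₁) S.nn t y + (2 * S.aa t y - S.C1 t y) * dX S.nn t y +
      (4 * S.aa t y ^ 2 + 5 * S.bb t y ^ 2 - 4 - dX S.C1 t y + 8 + 2 * S.aa t y * S.C1 t y) *
        S.nn t y = dX (fun s z => S.cE s z * S.Sg s z * S.EE s z) t y -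
        2 * S.aa t y * (S.cE t y * S.Sg t y * S.EE t y) := by
    rw [h.pop_nn ht hy, St.WW]
    ring
  rw [e, op_gN h ht hy]
  have f0 := S.f2_nonneg (t := t) hy
  have g4 := mul_le_mul_of_nonneg_left g3 f0
  exact (s5.trans g4).trans (le_mul_of_one_le_left (((abs_nonneg _).trans s5).trans g4) hM)

theorem iN_bd {S : St} {t y M c : ℝ} (hy : y ∈ Icc (0 : ℝ) 1) (hτ : 0 < S.τ₀ - t)
    (hh : S.hh t y ^ 2 ≤ (S.τ₀ - t) / 2) (hc : 0 ≤ c) (hM : 2 * c ≤ M)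
    (hn : |S.nn t y| ≤ c * (S.f2 t y * (S.τ₀ - t) ^ 2)) : |S.nn t y| ≤ gN S M t y := by
  have f0 := S.f2_nonneg (t := t) hy
  have h1 : (S.τ₀ - t) ^ 2 / 2 ≤ (S.τ₀ - t) ^ 2 - (S.τ₀ - t) * S.hh t y ^ 2 := by nlinarith
  have h2 := mul_le_mul_of_nonneg_left h1 f0
  have h3 : 0 ≤ S.f2 t y * ((S.τ₀ - t) ^ 2 / 2) := by positivity
  have h4 := mul_le_mul hM h2 h3 (by linarith)
  rw [gN]
  linarith

theorem iN_nhd {S : St} {t₁ t y η b : ℝ} (h : S.Sol t₁) (ht : t ∈ Icc 0 t₁)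
    (hy : y ∈ Icc (0 : ℝ) 1) (hb : y < b) (hr : S.rho t y < η * (S.τ₀ - t)) :
    {p : ℝ × ℝ | p ∈ Icc 0 t₁ ×ˢ Icc 0 b ∧ S.rho p.1 p.2 - η * (S.τ₀ - p.1) ≤ 0} ∈
      𝓝[Icc 0 t₁ ×ˢ Icc 0 1] (t, y) := by
  have c1 : ContinuousWithinAt (fun p : ℝ × ℝ => S.rho p.1 p.2 - η * (S.τ₀ - p.1))
      (Icc 0 t₁ ×ˢ Icc 0 1) (t, y) := (h.cont_rho (t, y) ⟨ht, hy⟩).sub (by fun_prop)
  filter_upwards [self_mem_nhdsWithin, c1.eventually (gt_mem_nhds (sub_neg.2 hr)),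
    (continuous_snd.continuousWithinAt (x := (t, y))).eventually (gt_mem_nhds hb)] with p p1 p2 p3
  exact ⟨⟨p1.1, p1.2.1, p3.le⟩, p2.le⟩

theorem iN_cpt {S : St} {t₁ η b : ℝ} (h : S.Sol t₁) (hb : b ≤ 1) :
    IsCompact {p : ℝ × ℝ | p ∈ Icc 0 t₁ ×ˢ Icc 0 b ∧ S.rho p.1 p.2 - η * (S.τ₀ - p.1) ≤ 0} := by
  have k : IsCompact (Icc 0 t₁ ×ˢ Icc (0 : ℝ) b) := isCompact_Icc.prod isCompact_Icc
  have c1 : ContinuousOn (fun p : ℝ × ℝ => S.rho p.1 p.2 - η * (S.τ₀ - p.1))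
      (Icc 0 t₁ ×ˢ Icc 0 b) :=
    (h.cont_rho.mono (prod_mono le_rfl (Icc_subset_Icc_right hb))).sub (by fun_prop)
  exact k.of_isClosed_subset (c1.preimage_isClosed_of_isClosed k.isClosed isClosed_Iic)
    fun p hp => hp.1

theorem iN_u {S : St} {t y M : ℝ} (hy : y ∈ Ioo (0 : ℝ) 1) (hτ : 0 < S.τ₀ - t) (hM : 0 ≤ M)
    (hn : |S.nn t y| ≤ gN S M t y) : |S.u1 t y| ≤ M := by
  have f0 := S.f2_pos (t := t) hy
  have s0 := S.sg_pos (t := t) (y := y) (by linarith)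
  have hh := S.hh_pos t y
  have h1 : (S.τ₀ - t) ^ 2 - (S.τ₀ - t) * S.hh t y ^ 2 ≤ S.sg t y ^ 2 := by
    rw [S.sg_eq]
    nlinarith [mul_pos hτ (pow_pos hh 2), pow_pos hh 4]
  have h2 := mul_le_mul_of_nonneg_left (mul_le_mul_of_nonneg_left h1 f0.le) hM
  rw [S.nn_eq (by linarith), abs_mul, abs_of_pos (by positivity), gN] at hn
  exact le_of_mul_le_mul_left (by linarith) (by positivity : 0 < S.f2 t y * S.sg t y ^ 2)

theorem i_n' : ∃ M, ∀ κ : Cst, κ.Adm → ∀ᶠ r in fam κ, ∀ t ∈ r.I, ∀ y ∈ Icc 0 (r.s ^ 3),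
    r.S.rho t y ≤ κ.η * r.tau t → |r.S.u1 t y| ≤ M := by
  obtain ⟨M0, hM0⟩ := data_u 0
  refine ⟨8 + 8 * |M0|, fun κ hκ => ?_⟩
  obtain ⟨C, hC, hsym⟩ := i_sym hκ
  obtain ⟨ε, hε, hg⟩ := gainN hC
  have hη : κ.η ≤ 1 / 1000 := by nlinarith [hκ.Am, hκ.η, hκ.ηA]
  have hM := abs_nonneg M0
  filter_upwards [hsym, i_E' hκ, n_out hκ, bas_I hκ, bas_mono hκ, ev_dok hκ, ev_mul_s κ 2 hε]
    with r h1 h2 h3 h4 h5 h6 h7
  have hs : 0 < r.s ^ 3 := pow_pos r.hs 3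
  have hs1 : r.s ^ 3 ≤ 1 / 1000 := (h4 0 ⟨le_rfl, r.sol.pos.le⟩ _ ⟨hs.le, le_rfl⟩).mem.2
  have sub : Icc 0 (r.s ^ 3) ⊆ Icc (0 : ℝ) 1 := Icc_subset_Icc_right (by linarith)
  have key := i_bar r.S r.sol.pos (iN_cpt (η := κ.η) r.sol (by linarith : r.s ^ 3 ≤ 1))
    (fun p hp => ⟨hp.1.1, sub hp.1.2⟩) r.sol.sm_nn (sm_gN r.sol (8 + 8 * |M0|)) ?_
  · have pos : ∀ t ∈ r.I, ∀ y ∈ Ioc 0 (r.s ^ 3), r.S.rho t y ≤ κ.η * r.tau t →
        |r.S.u1 t y| ≤ 8 + 8 * |M0| := fun t ht y hy hr =>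
      iN_u ⟨hy.1, by linarith [hy.2]⟩ (r.tau_pos ht) (by linarith)
        (key t y ⟨⟨ht, hy.1.le, hy.2⟩, sub_nonpos.2 hr⟩)
    intro t ht y hy hr
    rcases hy.1.eq_or_lt with rfl | hy0
    · obtain ⟨x, ⟨ya, hya, -, -, ea, -⟩, -⟩ := r.ex ht
      have ea' : r.S.rho t ya = κ.η * r.tau t := ea
      have ya0 : 0 < ya := hya.1.lt_of_ne fun e => by
        rw [← e, r.S.rho_zero] at ea'
        exact (mul_pos hκ.η (r.tau_pos ht)).ne ea'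
      refine i_zero ((r.sol.sm_u1.hasY ht (left_mem_Icc.2 zero_le_one)).continuousWithinAt) ya0
        (sub hya).2 fun z hz => pos t ht z ⟨hz.1, hz.2.le.trans hya.2⟩ ?_
      rw [← ea']
      exact (h5 t ht).1.monotoneOn ⟨hz.1.le, hz.2.le.trans hya.2⟩ hya hz.2.le
    · exact pos t ht y ⟨hy0, hy.2⟩ hr
  · rintro t y ⟨⟨ht, hy⟩, hr⟩
    have hr' : r.S.rho t y ≤ κ.η * r.tau t := sub_nonpos.1 hr
    have hτ := r.tau_pos ht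
    obtain ⟨e1, -, e3⟩ := h2 t ht y hy hr'
    have hh : r.S.hh t y ^ 2 ≤ (r.S.τ₀ - t) / 2 := by nlinarith [hκ.η]
    have f0 := r.S.f2_nonneg (t := t) (sub hy)
    rcases hr'.eq_or_lt with hr1 | hr1
    · refine Or.inl (iN_bd (c := 4) (sub hy) hτ hh (by norm_num) (by linarith) ?_)
      linarith [((h3 t ht y hy hr1.ge).2.2.2.2 hr1).1]
    rcases ht.1.eq_or_lt with rfl | ht0
    · refine Or.inl (iN_bd (c := 4 * |M0|) (sub hy) hτ hh (by linarith) (by linarith) ?_)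
      have d1 : |r.S.u1 0 y| ≤ |M0| :=
        ((hM0 _ _ _ h6 0 le_rfl y ⟨hy.1, by linarith [hy.2]⟩).1).trans (le_abs_self _)
      have d2 : r.S.sg 0 y ^ 2 ≤ 4 * (r.S.τ₀ - 0) ^ 2 := by
        rw [r.S.sg_eq]
        nlinarith [sq_nonneg (r.S.hh 0 y)]
      rw [r.S.nn_eq (by linarith), abs_mul, abs_of_nonneg (by positivity)]
      have := mul_le_mul (mul_le_mul_of_nonneg_left d2 f0) d1 (abs_nonneg _) (by positivity)
      linarith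
    rcases hy.1.eq_or_lt with rfl | hy0
    · refine Or.inl (iN_bd (c := 0) (sub hy) hτ hh le_rfl (by linarith) ?_)
      rw [r.S.nn_eq (by linarith)]
      simp [St.f2]
    obtain ⟨x, ⟨ya, hya, -, -, ea, -⟩, -⟩ := r.ex ht
    have ea' : r.S.rho t ya = κ.η * r.tau t := ea
    have hlt : y < ya := ((h5 t ht).1.lt_iff_lt hy hya).1 (by rw [ea']; exact hr1)
    refine Or.inr ⟨ht0, ⟨hy0, by linarith [hy.2]⟩,
      iN_nhd r.sol ht (sub hy) (hlt.trans_le hya.2) hr1,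
      iN_int r.sol ht (sub hy) hC (by linarith) e1 (fun μ Br δ hδ => ?_) (h1 t ht y hy)⟩
    have k1 : r.S.hh t y ≤ (1 + 1) * r.s := ((r.tr ht).I y hy).h
    exact hg _ _ _ μ Br δ hτ (r.S.hh_pos t y) (by linarith) (h4 t ht y hy).tau (by linarith)
      (r.S.th_nonneg (sub hy)) (by rw [← r.S.EE_eq]; exact e1) hδ

end Vale.Agent.P244
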